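import Mathlib

/-!
The tree space `Y` and its basic properties.
-/

namespace Vale.Agent.P069

open scoped ENNReal

noncomputable section

/-- square-summable functions on lists of naturals -/
abbrev L2 := lp (fun _ : List ℕ => ℝ) 2
/-- bounded functions on lists of naturals -/
abbrev Linf := lp (fun _ : List ℕ => ℝ) ∞
/-- one block: pairs, with the maximum norm -/
abbrev Blk := L2 × Linf
/-- the square-sum of countably many blocks -/
abbrev Z := lp (fun _ : ℕ => Blk) 2

/-- cumulative sums along the branch leading to a list (the ancestors of `l` are its suffixes) -/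
def cum (f : List ℕ → ℝ) : List ℕ → ℝ
  | [] => f []
  | (a :: l) => f (a :: l) + cum f l

theorem cum_add (f g : List ℕ → ℝ) (l : List ℕ) : cum (fun s => f s + g s) l = cum f l + cum g l := by
  induction l with
  | nil => simp [cum]
  | cons a l ih => simp only [cum, ih]; ring

theorem cum_smul (c : ℝ) (f : List ℕ → ℝ) (l : List ℕ) : cum (fun s => c * f s) l = c * cum f l := by
  induction l with
  | nil => simp [cum]
  | cons a l ih => simp only [cum, ih]; ring

theorem cum_zero (l : List ℕ) : cum (fun _ => 0) l = 0 := by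
  induction l with
  | nil => simp [cum]
  | cons a l ih => simp [cum, ih]

/-- the tree space, as a closed submodule of `Z` -/
def Ysub : Submodule ℝ Z where
  carrier := {h | ∀ (n : ℕ) (l : List ℕ), (n < l.length → (h n).1 l = 0) ∧
    (h n).2 l = cum (fun s => (h n).1 s) l}
  add_mem' := by
    intro a b ha hb n l
    have e1 : ∀ l, ((a + b) n).1 l = (a n).1 l + (b n).1 l := fun l => rfl
    have e2 : ∀ l, ((a + b) n).2 l = (a n).2 l + (b n).2 l := fun l => rfl
    refine ⟨fun h => ?_, ?_⟩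
    · rw [e1, (ha n l).1 h, (hb n l).1 h]; simp
    · rw [e2, (ha n l).2, (hb n l).2]
      simp only [e1]
      rw [cum_add]
  zero_mem' := by
    intro n l
    refine ⟨fun _ => rfl, ?_⟩
    change (0:ℝ) = cum (fun _ => 0) l
    rw [cum_zero]
  smul_mem' := by
    intro c a ha n l
    have e1 : ∀ l, ((c • a) n).1 l = c * (a n).1 l := fun l => rfl
    have e2 : ∀ l, ((c • a) n).2 l = c * (a n).2 l := fun l => rfl
    refine ⟨fun h => ?_, ?_⟩
    · rw [e1, (ha n l).1 h]; simp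
    · rw [e2, (ha n l).2]
      simp only [e1]
      rw [cum_smul]

/-- evaluation of the first component -/
def ev1 (n : ℕ) (l : List ℕ) : Z →L[ℝ] ℝ :=
  (lp.evalCLM ℝ (fun _ : List ℕ => ℝ) 2 l).comp
    ((ContinuousLinearMap.fst ℝ L2 Linf).comp (lp.evalCLM ℝ (fun _ : ℕ => Blk) 2 n))

/-- evaluation of the second component -/
def ev2 (n : ℕ) (l : List ℕ) : Z →L[ℝ] ℝ :=
  (lp.evalCLM ℝ (fun _ : List ℕ => ℝ) ∞ l).comp
    ((ContinuousLinearMap.snd ℝ L2 Linf).comp (lp.evalCLM ℝ (fun _ : ℕ => Blk) 2 n))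

theorem ev1_apply (n : ℕ) (l : List ℕ) (h : Z) : ev1 n l h = (h n).1 l := rfl
theorem ev2_apply (n : ℕ) (l : List ℕ) (h : Z) : ev2 n l h = (h n).2 l := rfl

theorem continuous_cum (n : ℕ) (l : List ℕ) : Continuous (fun h : Z => cum (fun s => (h n).1 s) l) := by
  induction l with
  | nil => exact (ev1 n []).continuous
  | cons a l ih => exact (ev1 n (a :: l)).continuous.add ih

theorem isClosed_Ysub : IsClosed (Ysub : Set Z) := by
  have : (Ysub : Set Z) = ⋂ (n : ℕ), ⋂ (l : List ℕ), {h : Z | (n < l.length → (h n).1 l = 0) ∧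
    (h n).2 l = cum (fun s => (h n).1 s) l} := by
    ext h
    simp only [Set.mem_iInter, Set.mem_ofPred_eq]
    rfl
  rw [this]
  refine isClosed_iInter fun n => isClosed_iInter fun l => ?_
  have h1 : IsClosed {h : Z | (n < l.length → (h n).1 l = 0)} := by
    by_cases hn : n < l.length
    · have : {h : Z | (n < l.length → (h n).1 l = 0)} = {h : Z | ev1 n l h = 0} := by
        ext h; simp [hn, ev1_apply]
      rw [this]
      exact isClosed_eq (ev1 n l).continuous continuous_const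
    · have : {h : Z | (n < l.length → (h n).1 l = 0)} = Set.univ := by
        ext h; simp [hn]
      rw [this]; exact isClosed_univ
  have h2 : IsClosed {h : Z | (h n).2 l = cum (fun s => (h n).1 s) l} :=
    isClosed_eq (ev2 n l).continuous (continuous_cum n l)
  exact h1.inter h2

/-- the tree space -/
def Y : Type := ↥Ysub

instance : NormedAddCommGroup Y := inferInstanceAs (NormedAddCommGroup ↥Ysub)
instance : NormedSpace ℝ Y := inferInstanceAs (NormedSpace ℝ ↥Ysub)
instance : CompleteSpace Y := isClosed_Ysub.completeSpace_coe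

/-- the inclusion of the tree space -/
def toZ : Y →ₗᵢ[ℝ] Z := Ysub.subtypeₗᵢ

theorem norm_toZ (h : Y) : ‖toZ h‖ = ‖h‖ := toZ.norm_map h

/-- the coordinates of an element -/
def co (h : Y) (n : ℕ) (l : List ℕ) : ℝ := (toZ h n).1 l

theorem co_len (h : Y) {n : ℕ} {l : List ℕ} (hl : n < l.length) : co h n l = 0 := (h.2 n l).1 hl

theorem snd_eq (h : Y) (n : ℕ) (l : List ℕ) : (toZ h n).2 l = cum (co h n) l := (h.2 n l).2

theorem co_add (h k : Y) (n : ℕ) (l : List ℕ) : co (h + k) n l = co h n l + co k n l := rfl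
theorem co_sub (h k : Y) (n : ℕ) (l : List ℕ) : co (h - k) n l = co h n l - co k n l := rfl
theorem co_neg (h : Y) (n : ℕ) (l : List ℕ) : co (-h) n l = - co h n l := rfl
theorem co_smul (c : ℝ) (h : Y) (n : ℕ) (l : List ℕ) : co (c • h) n l = c * co h n l := rfl
theorem co_zero (n : ℕ) (l : List ℕ) : co 0 n l = 0 := rfl

theorem Y_ext {h k : Y} (H : ∀ n l, co h n l = co k n l) : h = k := by
  apply toZ.injective
  apply lp.ext
  funext n
  apply Prod.ext
  · apply lp.ext
    funext l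
    exact H n l
  · apply lp.ext
    funext l
    rw [snd_eq, snd_eq]
    congr 1
    funext l
    exact H n l

/-- the coordinate functionals -/
def coF (n : ℕ) (l : List ℕ) : Y →L[ℝ] ℝ := (ev1 n l).comp toZ.toContinuousLinearMap
theorem coF_apply (n : ℕ) (l : List ℕ) (h : Y) : coF n l h = co h n l := rfl

/-- the cumulative functionals -/
def cuF (n : ℕ) (l : List ℕ) : Y →L[ℝ] ℝ := (ev2 n l).comp toZ.toContinuousLinearMap
theorem cuF_apply (n : ℕ) (l : List ℕ) (h : Y) : cuF n l h = cum (co h n) l := snd_eq h n l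

theorem norm_blk_le (h : Y) (n : ℕ) : ‖toZ h n‖ ≤ ‖h‖ :=
  (lp.norm_apply_le_norm (by norm_num) (toZ h) n).trans_eq (norm_toZ h)

theorem abs_co_le (h : Y) (n : ℕ) (l : List ℕ) : |co h n l| ≤ ‖h‖ := by
  have h1 : ‖(toZ h n).1 l‖ ≤ ‖(toZ h n).1‖ := lp.norm_apply_le_norm (by norm_num) _ l
  have h2 : ‖(toZ h n).1‖ ≤ ‖(toZ h) n‖ := norm_fst_le _
  exact (h1.trans h2).trans (norm_blk_le h n)

theorem abs_cum_le (h : Y) (n : ℕ) (l : List ℕ) : |cum (co h n) l| ≤ ‖h‖ := by
  rw [← snd_eq]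
  have h1 : ‖(toZ h n).2 l‖ ≤ ‖(toZ h n).2‖ := lp.norm_apply_le_norm (by norm_num) _ l
  have h2 : ‖(toZ h n).2‖ ≤ ‖(toZ h) n‖ := norm_snd_le _
  exact (h1.trans h2).trans (norm_blk_le h n)

theorem norm_sq_eq_tsum {ι : Type*} {E : ι → Type*} [∀ i, NormedAddCommGroup (E i)] (f : lp E 2) :
    ‖f‖ ^ 2 = ∑' i, ‖f i‖ ^ 2 := by
  have := lp.norm_rpow_eq_tsum (p := 2) (by norm_num) f
  simpa using this

theorem summable_sq {ι : Type*} {E : ι → Type*} [∀ i, NormedAddCommGroup (E i)] (f : lp E 2) :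
    Summable fun i => ‖f i‖ ^ 2 := by
  have := (lp.memℓp f).summable (p := 2) (by norm_num)
  simpa using this

theorem memlp_two {ι : Type*} {E : ι → Type*} [∀ i, NormedAddCommGroup (E i)] {f : ∀ i, E i}
    (h : Summable fun i => ‖f i‖ ^ 2) : Memℓp f 2 := by
  apply memℓp_gen
  simpa using h

theorem cuF_norm_le (n : ℕ) (l : List ℕ) : ‖cuF n l‖ ≤ 1 := by
  refine ContinuousLinearMap.opNorm_le_bound _ zero_le_one fun h => ?_
  rw [cuF_apply, one_mul]
  exact abs_cum_le h n l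

theorem cuF_cons (n : ℕ) (a : ℕ) (l : List ℕ) : cuF n (a :: l) = cuF n l + coF n (a :: l) := by
  ext h
  simp only [add_apply, cuF_apply, coF_apply, cum]
  ring

/-- constructor: an element from coordinates -/
def mkY (f : ℕ → List ℕ → ℝ) (h0 : ∀ n l, n < l.length → f n l = 0)
    (b : ℕ → ℝ) (hb : ∀ n, 0 ≤ b n) (h1 : ∀ n, Summable fun l => f n l ^ 2)
    (h2 : ∀ n, ∑' l, f n l ^ 2 ≤ b n ^ 2) (h3 : ∀ n l, |cum (f n) l| ≤ b n)
    (h4 : Summable fun n => b n ^ 2) : Y := by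
  refine ⟨⟨fun n => (⟨fun l => f n l, memlp_two (by simpa using h1 n)⟩,
    ⟨fun l => cum (f n) l, ?_⟩), ?_⟩, ?_⟩
  · apply memℓp_infty
    refine ⟨b n, ?_⟩
    rintro _ ⟨l, rfl⟩
    exact h3 n l
  · apply memlp_two
    refine Summable.of_nonneg_of_le (fun n => by positivity) (fun n => ?_) h4
    have : ‖((⟨fun l => f n l, memlp_two (by simpa using h1 n)⟩,
        ⟨fun l => cum (f n) l, memℓp_infty ⟨b n, by
          rintro _ ⟨l, rfl⟩
          exact h3 n l⟩⟩) : Blk)‖ ≤ b n := by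
      rw [Prod.norm_def]
      refine max_le ?_ ?_
      · refine abs_le_of_sq_le_sq' ?_ (hb n) |>.2
        rw [norm_sq_eq_tsum]
        simpa using h2 n
      · refine lp.norm_le_of_forall_le (hb n) fun l => h3 n l
    exact pow_le_pow_left₀ (norm_nonneg _) this 2
  · intro n l
    exact ⟨fun h => h0 n l h, rfl⟩

theorem co_mkY (f : ℕ → List ℕ → ℝ) (h0 : ∀ n l, n < l.length → f n l = 0)
    (b : ℕ → ℝ) (hb : ∀ n, 0 ≤ b n) (h1 : ∀ n, Summable fun l => f n l ^ 2)
    (h2 : ∀ n, ∑' l, f n l ^ 2 ≤ b n ^ 2) (h3 : ∀ n l, |cum (f n) l| ≤ b n)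
    (h4 : Summable fun n => b n ^ 2) (n : ℕ) (l : List ℕ) :
    co (mkY f h0 b hb h1 h2 h3 h4) n l = f n l := rfl

/-- norm bound from blockwise bounds -/
theorem norm_sq_le (h : Y) (b : ℕ → ℝ) (hb : ∀ n, 0 ≤ b n)
    (h2 : ∀ n, ∑' l, (co h n l) ^ 2 ≤ b n) (h3 : ∀ n l, (cum (co h n) l) ^ 2 ≤ b n)
    (h4 : Summable b) : ‖h‖ ^ 2 ≤ ∑' n, b n := by
  have e : ‖h‖ ^ 2 = ∑' n, ‖toZ h n‖ ^ 2 := by rw [← norm_toZ]; exact norm_sq_eq_tsum (toZ h)
  rw [e]
  refine Summable.tsum_le_tsum (fun n => ?_) (summable_sq (toZ h)) h4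
  have : ‖(toZ h) n‖ ≤ Real.sqrt (b n) := by
    rw [Prod.norm_def]
    refine max_le ?_ ?_
    · refine Real.le_sqrt_of_sq_le ?_
      rw [norm_sq_eq_tsum]
      simpa [co] using h2 n
    · refine lp.norm_le_of_forall_le (Real.sqrt_nonneg _) fun l => ?_
      refine Real.le_sqrt_of_sq_le ?_
      have := h3 n l
      rw [← snd_eq] at this
      simpa using this
  calc ‖(toZ h) n‖ ^ 2 ≤ Real.sqrt (b n) ^ 2 := pow_le_pow_left₀ (norm_nonneg _) this 2
    _ = b n := Real.sq_sqrt (hb n)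

/-- block size -/
def bl (h : Y) (n : ℕ) : ℝ := ‖(toZ h) n‖

theorem bl_nonneg (h : Y) (n : ℕ) : 0 ≤ bl h n := norm_nonneg _

theorem norm_sq_bl (h : Y) : ‖h‖ ^ 2 = ∑' n, bl h n ^ 2 := by
  rw [← norm_toZ]; exact norm_sq_eq_tsum (toZ h)
theorem summable_bl (h : Y) : Summable fun n => bl h n ^ 2 := summable_sq (toZ h)

theorem summable_co (h : Y) (n : ℕ) : Summable fun l => co h n l ^ 2 := by
  have := summable_sq (toZ h n).1
  simpa [co] using this

theorem tsum_co_le (h : Y) (n : ℕ) : ∑' l, co h n l ^ 2 ≤ bl h n ^ 2 := by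
  have e := norm_sq_eq_tsum (toZ h n).1
  have h2 : ‖(toZ h n).1‖ ≤ ‖(toZ h) n‖ := norm_fst_le _
  have : ∑' l, co h n l ^ 2 = ‖(toZ h n).1‖ ^ 2 := by
    rw [e]; simp [co]
  rw [this]
  exact pow_le_pow_left₀ (norm_nonneg _) h2 2

theorem abs_cum_le_bl (h : Y) (n : ℕ) (l : List ℕ) : |cum (co h n) l| ≤ bl h n := by
  rw [← snd_eq]
  have h1 : ‖(toZ h n).2 l‖ ≤ ‖(toZ h n).2‖ := lp.norm_apply_le_norm (by norm_num) _ l
  have h2 : ‖(toZ h n).2‖ ≤ ‖(toZ h) n‖ := norm_snd_le _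
  exact h1.trans h2

end

end Vale.Agent.P069
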