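import Mathlib
import Vale.Agent.P069.Space

/-!
Projections, the tail lemma and the shrinking property of the tree space.
-/

namespace Vale.Agent.P069

open scoped ENNReal
open Filter

noncomputable section

/-- abstract tail lemma -/
theorem tail_small {E : Type*} [NormedAddCommGroup E] [NormedSpace ℝ E]
    (P : ℕ → E → E) (hT : ∀ h, Tendsto (fun m => P m h) atTop (nhds h))
    (hP : ∀ m (a b : ℝ) (u v : E),
      ‖a • P m u + b • (v - P m v)‖ ^ 2 ≤ a ^ 2 * ‖u‖ ^ 2 + b ^ 2 * ‖v‖ ^ 2)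
    (φ : E →L[ℝ] ℝ) {ε : ℝ} (hε : 0 < ε) :
    ∀ᶠ m in atTop, ∀ v, |φ (v - P m v)| ≤ ε * ‖v‖ := by
  rcases eq_or_lt_of_le (norm_nonneg φ) with h0 | h0
  · have : φ = 0 := norm_eq_zero.1 h0.symm
    refine Eventually.of_forall fun m v => ?_
    rw [this]; simp only [zero_apply, abs_zero]; positivity
  set a := ‖φ‖ with ha
  set δ := min a (ε ^ 2 / (2 * a)) with hδ
  have hδ0 : 0 < δ := lt_min h0 (by positivity)
  have hδa : δ ≤ a := min_le_left _ _
  have hδε : 2 * a * δ ≤ ε ^ 2 := by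
    have : δ ≤ ε ^ 2 / (2 * a) := min_le_right _ _
    rw [le_div_iff₀ (by positivity)] at this
    linarith
  obtain ⟨u, hu1, hu2⟩ : ∃ u : E, ‖u‖ < 1 ∧ a - δ < φ u := by
    obtain ⟨u, hu1, hu2⟩ := φ.exists_lt_apply_of_lt_opNorm (r := a - δ) (by linarith)
    rcases le_or_gt 0 (φ u) with h | h
    · exact ⟨u, hu1, by rwa [Real.norm_of_nonneg h] at hu2⟩
    · refine ⟨-u, by rwa [norm_neg], ?_⟩
      rw [Real.norm_of_nonpos h.le] at hu2
      simpa using hu2
  have hev : ∀ᶠ m in atTop, a - δ < φ (P m u) :=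
    ((φ.continuous.tendsto u).comp (hT u)).eventually (lt_mem_nhds hu2)
  filter_upwards [hev] with m hm v
  rcases eq_or_lt_of_le (norm_nonneg v) with hv | hv
  · have hv0 : v = 0 := norm_eq_zero.1 hv.symm
    have h1 := hP m 0 1 0 v
    rw [hv0] at h1 ⊢
    simp only [zero_smul, zero_add, one_smul, norm_zero] at h1
    have h2 : ‖(0:E) - P m 0‖ = 0 := by nlinarith [norm_nonneg ((0:E) - P m 0)]
    rw [norm_eq_zero.1 h2]
    simp
  set p := φ (P m u) with hp
  set q := φ (v - P m v) with hq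
  have hX := hP m p (q / ‖v‖ ^ 2) u v
  have e1 : φ (p • P m u + (q / ‖v‖ ^ 2) • (v - P m v)) = p ^ 2 + q ^ 2 / ‖v‖ ^ 2 := by
    rw [map_add, map_smul, map_smul, ← hp, ← hq, smul_eq_mul, smul_eq_mul]
    ring
  set w := p • P m u + (q / ‖v‖ ^ 2) • (v - P m v) with hw
  have e2 : φ w ≤ a * ‖w‖ := (le_abs_self _).trans (φ.le_opNorm w)
  have e3 : ‖w‖ ^ 2 ≤ p ^ 2 + q ^ 2 / ‖v‖ ^ 2 := by
    refine hX.trans ?_
    have : (q / ‖v‖ ^ 2) ^ 2 * ‖v‖ ^ 2 = q ^ 2 / ‖v‖ ^ 2 := by
      field_simp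
    rw [this]
    have : ‖u‖ ^ 2 ≤ 1 := by nlinarith [norm_nonneg u]
    nlinarith [sq_nonneg p]
  set X := p ^ 2 + q ^ 2 / ‖v‖ ^ 2 with hXd
  have hX0 : 0 ≤ X := by positivity
  have e4 : X ^ 2 ≤ a ^ 2 * X := by
    rw [← e1]
    have h1 : 0 ≤ φ w := by rw [e1]; exact hX0
    calc (φ w) ^ 2 ≤ (a * ‖w‖) ^ 2 := pow_le_pow_left₀ h1 e2 2
      _ = a ^ 2 * ‖w‖ ^ 2 := by ring
      _ ≤ a ^ 2 * φ w := by rw [e1]; gcongr
  have e5 : X ≤ a ^ 2 := by
    rcases eq_or_lt_of_le hX0 with h | h
    · rw [← h]; positivity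
    · have : X * X ≤ a ^ 2 * X := by rw [← sq]; exact e4
      exact le_of_mul_le_mul_right this h
  have e6 : (a - δ) ^ 2 ≤ p ^ 2 := pow_le_pow_left₀ (by linarith) hm.le 2
  have e7 : q ^ 2 / ‖v‖ ^ 2 ≤ ε ^ 2 := by nlinarith
  have e8 : q ^ 2 ≤ (ε * ‖v‖) ^ 2 := by
    rw [div_le_iff₀ (by positivity)] at e7
    rw [mul_pow]; exact e7
  exact abs_le_of_sq_le_sq e8 (by positivity)

set_option linter.unusedSectionVars false

section restr
variable {ι : Type*} [DecidableEq ι] {E : ι → Type*} [∀ i, NormedAddCommGroup (E i)]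
  [∀ i, NormedSpace ℝ (E i)]

/-- restriction to a finite set of indices -/
def restr (S : Finset ι) (h : lp E 2) : lp E 2 := ∑ i ∈ S, lp.single 2 i (h i)

theorem restr_apply (S : Finset ι) (h : lp E 2) (i : ι) :
    restr S h i = if i ∈ S then h i else 0 := by
  unfold restr
  rw [lp.coeFn_sum, Finset.sum_apply]
  by_cases hi : i ∈ S
  · rw [if_pos hi, Finset.sum_eq_single i]
    · simp
    · intro j _ hj
      exact lp.single_apply_ne _ _ _ (Ne.symm hj)
    · intro h; exact absurd hi h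
  · rw [if_neg hi]
    apply Finset.sum_eq_zero
    intro j hj
    exact lp.single_apply_ne _ _ _ (fun h => hi (h ▸ hj))

theorem tendsto_restr {S : ℕ → Finset ι} (hS : Tendsto S atTop atTop) (h : lp E 2) :
    Tendsto (fun m => restr (S m) h) atTop (nhds h) := by
  have := lp.hasSum_single (p := 2) (by norm_num) h
  exact this.comp hS

/-- norm comparison in square sums -/
theorem norm_sq_le_of_blocks (w u v : lp E 2) (a b : ℝ)
    (H : ∀ i, ‖w i‖ ^ 2 ≤ a ^ 2 * ‖u i‖ ^ 2 + b ^ 2 * ‖v i‖ ^ 2) :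
    ‖w‖ ^ 2 ≤ a ^ 2 * ‖u‖ ^ 2 + b ^ 2 * ‖v‖ ^ 2 := by
  rw [norm_sq_eq_tsum w, norm_sq_eq_tsum u, norm_sq_eq_tsum v, ← tsum_mul_left, ← tsum_mul_left,
    ← Summable.tsum_add ((summable_sq u).mul_left _) ((summable_sq v).mul_left _)]
  exact Summable.tsum_le_tsum H (summable_sq w)
    (((summable_sq u).mul_left _).add ((summable_sq v).mul_left _))

theorem restr_block (S : Finset ι) (u v : lp E 2) (a b : ℝ) :
    ‖a • restr S u + b • (v - restr S v)‖ ^ 2 ≤ a ^ 2 * ‖u‖ ^ 2 + b ^ 2 * ‖v‖ ^ 2 := by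
  apply norm_sq_le_of_blocks
  intro i
  have : (a • restr S u + b • (v - restr S v)) i = a • restr S u i + b • (v i - restr S v i) := rfl
  rw [this, restr_apply, restr_apply]
  by_cases hi : i ∈ S
  · simp only [if_pos hi, sub_self, smul_zero, add_zero, norm_smul, mul_pow, Real.norm_eq_abs,
      sq_abs]
    nlinarith [mul_nonneg (sq_nonneg b) (sq_nonneg ‖v i‖)]
  · simp only [if_neg hi, sub_zero, smul_zero, zero_add, norm_smul, mul_pow, Real.norm_eq_abs,
      sq_abs]
    nlinarith [mul_nonneg (sq_nonneg a) (sq_nonneg ‖u i‖)]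

end restr

/-- cumulative sums of bounded functions of bounded length -/
theorem abs_cum_bound (g : List ℕ → ℝ) (n : ℕ) (C : ℝ) (hC : 0 ≤ C) (h1 : ∀ s, |g s| ≤ C)
    (h2 : ∀ s : List ℕ, n < s.length → g s = 0) (l : List ℕ) : |cum g l| ≤ (n + 1) * C := by
  have key : |cum g l| ≤ ((min l.length n : ℕ) + 1) * C := by
    induction l with
    | nil => simpa [cum] using h1 []
    | cons a l ih =>
      simp only [cum]
      by_cases hl : n < (a :: l).length
      · rw [h2 _ hl, zero_add]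
        refine ih.trans ?_
        gcongr
        simp
      · have h3 : min (a :: l).length n = min l.length n + 1 := by
          simp only [List.length_cons] at hl ⊢
          omega
        rw [h3]
        push_cast
        calc |g (a :: l) + cum g l| ≤ |g (a :: l)| + |cum g l| := abs_add_le _ _
          _ ≤ C + ((min l.length n : ℕ) + 1) * C := add_le_add (h1 _) ih
          _ = _ := by push_cast; ring
  refine key.trans ?_
  gcongr
  exact_mod_cast Nat.min_le_right _ _

/-- coordinates of the inclusion of a block -/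
def inF (n : ℕ) (u : L2) : ℕ → List ℕ → ℝ :=
  fun n' l => if n' = n ∧ l.length ≤ n then u l else 0

theorem inF_cum_bound (n : ℕ) (u : L2) (n' : ℕ) (l : List ℕ) :
    |cum (inF n u n') l| ≤ if n' = n then (n + 1) * ‖u‖ else 0 := by
  by_cases hn : n' = n
  · rw [if_pos hn]
    refine abs_cum_bound _ n _ (norm_nonneg u) (fun s => ?_) (fun s hs => ?_) l
    · unfold inF
      split_ifs
      · exact lp.norm_apply_le_norm (by norm_num) u s
      · simp
    · unfold inF
      rw [if_neg]; intro h; omega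
  · rw [if_neg hn]
    have : inF n u n' = fun _ => 0 := by
      funext s; unfold inF; rw [if_neg]; intro h; exact hn h.1
    rw [this, cum_zero]; simp

theorem inF_sq_le (n : ℕ) (u : L2) (n' : ℕ) (l : List ℕ) : inF n u n' l ^ 2 ≤ ‖u l‖ ^ 2 := by
  unfold inF
  split_ifs
  · simp
  · simp only [ne_eq, OfNat.ofNat_ne_zero, not_false_eq_true, zero_pow]; positivity

theorem inF_summable (n : ℕ) (u : L2) (n' : ℕ) : Summable fun l => inF n u n' l ^ 2 :=
  Summable.of_nonneg_of_le (fun _ => sq_nonneg _) (inF_sq_le n u n') (summable_sq u)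

theorem inF_tsum (n : ℕ) (u : L2) (n' : ℕ) :
    ∑' l, inF n u n' l ^ 2 ≤ (if n' = n then (n + 1) * ‖u‖ else 0) ^ 2 := by
  by_cases hn : n' = n
  · rw [if_pos hn]
    calc ∑' l, inF n u n' l ^ 2 ≤ ∑' l, ‖u l‖ ^ 2 :=
          Summable.tsum_le_tsum (inF_sq_le n u n') (inF_summable n u n') (summable_sq u)
      _ = ‖u‖ ^ 2 := (norm_sq_eq_tsum u).symm
      _ ≤ ((n + 1) * ‖u‖) ^ 2 := by
          refine pow_le_pow_left₀ (norm_nonneg _) ?_ 2
          nlinarith [norm_nonneg u, (Nat.cast_nonneg n : (0:ℝ) ≤ n)]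
  · rw [if_neg hn]
    have : ∀ l, inF n u n' l ^ 2 = 0 := by
      intro l; unfold inF; rw [if_neg]; · simp
      intro h; exact hn h.1
    simp [this]

/-- inclusion of a block, as a function -/
def inY (n : ℕ) (u : L2) : Y :=
  mkY (inF n u) (fun n' l h => by unfold inF; rw [if_neg]; intro h'; omega)
    (fun n' => if n' = n then (n + 1) * ‖u‖ else 0)
    (fun n' => by split_ifs <;> positivity) (inF_summable n u) (inF_tsum n u)
    (inF_cum_bound n u)
    (summable_of_ne_finset_zero (s := {n}) (fun b hb => by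
      have : b ≠ n := by simpa using hb
      simp [this]))

theorem co_inY (n : ℕ) (u : L2) (n' : ℕ) (l : List ℕ) :
    co (inY n u) n' l = if n' = n ∧ l.length ≤ n then u l else 0 := rfl

theorem norm_inY_le (n : ℕ) (u : L2) : ‖inY n u‖ ≤ (n + 1) * ‖u‖ := by
  have h := norm_sq_le (inY n u) (fun n' => (if n' = n then (n + 1) * ‖u‖ else 0) ^ 2)
    (fun n' => sq_nonneg _) (fun n' => inF_tsum n u n')
    (fun n' l => by
      have this : |cum (co (inY n u) n') l| ≤ if n' = n then (n + 1) * ‖u‖ else 0 :=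
        inF_cum_bound n u n' l
      exact sq_le_sq' (abs_le.1 this).1 (abs_le.1 this).2)
    (summable_of_ne_finset_zero (s := {n}) (fun b hb => by
      have : b ≠ n := by simpa using hb
      simp [this]))
  rw [tsum_eq_single n (fun b hb => by simp [hb])] at h
  simp only [if_true] at h
  exact (abs_le_of_sq_le_sq h (by positivity)).trans' (le_abs_self _)

/-- inclusion of a block -/
def inCLM (n : ℕ) : L2 →L[ℝ] Y :=
  LinearMap.mkContinuous
    { toFun := inY n
      map_add' := fun u v => by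
        apply Y_ext; intro n' l
        rw [co_add, co_inY, co_inY, co_inY]
        split_ifs
        · rfl
        · simp
      map_smul' := fun c u => by
        apply Y_ext; intro n' l
        rw [RingHom.id_apply, co_smul, co_inY, co_inY]
        split_ifs
        · rfl
        · simp } (n + 1) (norm_inY_le n)

theorem inCLM_apply (n : ℕ) (u : L2) : inCLM n u = inY n u := rfl

/-- projection onto the first component of a block -/
def prCLM (n : ℕ) : Y →L[ℝ] L2 :=
  (ContinuousLinearMap.fst ℝ L2 Linf).comp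
    ((lp.evalCLM ℝ (fun _ : ℕ => Blk) 2 n).comp toZ.toContinuousLinearMap)

theorem prCLM_apply (n : ℕ) (h : Y) (l : List ℕ) : prCLM n h l = co h n l := rfl

theorem norm_prCLM_le (n : ℕ) (h : Y) : ‖prCLM n h‖ ≤ ‖h‖ :=
  (norm_fst_le (toZ h n)).trans (norm_blk_le h n)

/-- projection onto the first `N` blocks -/
def Pb (N : ℕ) : Y →L[ℝ] Y := ∑ n ∈ Finset.range N, (inCLM n).comp (prCLM n)

theorem Pb_apply (N : ℕ) (h : Y) : Pb N h = ∑ n ∈ Finset.range N, inY n (prCLM n h) := by
  unfold Pb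
  rw [sum_apply]
  rfl

theorem co_sum {ι : Type*} (s : Finset ι) (f : ι → Y) (n : ℕ) (l : List ℕ) :
    co (∑ i ∈ s, f i) n l = ∑ i ∈ s, co (f i) n l := by
  change coF n l (∑ i ∈ s, f i) = ∑ i ∈ s, coF n l (f i)
  rw [map_sum]

theorem co_Pb (N : ℕ) (h : Y) (n : ℕ) (l : List ℕ) :
    co (Pb N h) n l = if n < N then co h n l else 0 := by
  rw [Pb_apply, co_sum]
  by_cases hn : n < N
  · rw [if_pos hn, Finset.sum_eq_single n]
    · rw [co_inY]
      by_cases hl : l.length ≤ n
      · rw [if_pos ⟨rfl, hl⟩]; rfl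
      · rw [if_neg (fun h => hl h.2), co_len h (by omega)]
    · intro j _ hj
      rw [co_inY, if_neg (fun h => hj h.1.symm)]
    · intro h'; exact absurd (Finset.mem_range.2 hn) h'
  · rw [if_neg hn]
    apply Finset.sum_eq_zero
    intro j hj
    rw [co_inY, if_neg]
    intro h'
    have := Finset.mem_range.1 hj
    omega

theorem blk_eq {h k : Y} {n m : ℕ} (H : ∀ l, co h n l = co k m l) : toZ h n = toZ k m := by
  apply Prod.ext
  · apply lp.ext
    funext l
    exact H l
  · apply lp.ext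
    funext l
    rw [snd_eq, snd_eq]
    congr 1
    funext l
    exact H l

theorem blk_zero {h : Y} {n : ℕ} (H : ∀ l, co h n l = 0) : toZ h n = 0 := by
  have := blk_eq (h := h) (k := 0) (n := n) (m := n) (fun l => by rw [H l, co_zero])
  rw [this, map_zero]; rfl

theorem coe_Pb (N : ℕ) (h : Y) : toZ (Pb N h) = restr (Finset.range N) (toZ h) := by
  apply lp.ext
  funext n
  rw [restr_apply]
  by_cases hn : n < N
  · rw [if_pos (Finset.mem_range.2 hn)]
    exact blk_eq fun l => by rw [co_Pb, if_pos hn]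
  · rw [if_neg (fun h => hn (Finset.mem_range.1 h))]
    exact blk_zero fun l => by rw [co_Pb, if_neg hn]

theorem tendsto_Pb (h : Y) : Tendsto (fun N => Pb N h) atTop (nhds h) := by
  rw [toZ.isometry.isEmbedding.tendsto_nhds_iff]
  have e : (toZ ∘ fun N => Pb N h) = fun N => restr (Finset.range N) (toZ h) := by
    funext N; exact coe_Pb N h
  rw [e]
  exact tendsto_restr Filter.tendsto_finset_range (toZ h)

/-- tail lemma for blocks -/
theorem tail_blocks (x : Y →L[ℝ] ℝ) {ε : ℝ} (hε : 0 < ε) :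
    ∀ᶠ N in atTop, ∀ v, |x (v - Pb N v)| ≤ ε * ‖v‖ := by
  refine tail_small (fun N => Pb N) tendsto_Pb (fun N a b u v => ?_) x hε
  have := restr_block (Finset.range N) (toZ u) (toZ v) a b
  have e : ‖a • Pb N u + b • (v - Pb N v)‖ =
      ‖a • restr (Finset.range N) (toZ u) + b • (toZ v - restr (Finset.range N) (toZ v))‖ := by
    rw [← coe_Pb, ← coe_Pb, ← norm_toZ, map_add, map_smul, map_smul, map_sub]
  rw [e, ← norm_toZ u, ← norm_toZ v]
  exact this

end

end Vale.Agent.P069
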