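import Mathlib
import Vale.Agent.P069.Proj

/-!
Finite boxes of nodes, the shrinking property and reflexivity of the tree space.
-/

namespace Vale.Agent.P069

open scoped ENNReal
open Filter

noncomputable section

/-- lists of length at most `k` with entries below `m` -/
def boxL (m : ℕ) : ℕ → Finset (List ℕ)
  | 0 => {[]}
  | (k + 1) => insert [] (Finset.image₂ List.cons (Finset.range m) (boxL m k))

theorem mem_boxL (m k : ℕ) (l : List ℕ) : l ∈ boxL m k ↔ l.length ≤ k ∧ ∀ a ∈ l, a < m := by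
  induction k generalizing l with
  | zero =>
    simp only [boxL, Finset.mem_singleton]
    constructor
    · rintro rfl; simp
    · rintro ⟨h, _⟩; exact List.length_eq_zero_iff.1 (by omega)
  | succ k ih =>
    cases l with
    | nil => simp [boxL]
    | cons b l =>
      simp only [boxL, Finset.mem_insert, Finset.mem_image₂, Finset.mem_range]
      constructor
      · rintro (h | ⟨a, ha, l', hl', h⟩)
        · simp at h
        · rw [List.cons.injEq] at h
          obtain ⟨rfl, rfl⟩ := h
          rw [ih] at hl'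
          refine ⟨by simpa using hl'.1, ?_⟩
          intro c hc
          rcases List.mem_cons.1 hc with rfl | hc
          · exact ha
          · exact hl'.2 c hc
      · rintro ⟨h1, h2⟩
        right
        refine ⟨b, h2 b (by simp), l, ?_, rfl⟩
        rw [ih]
        exact ⟨by simpa using h1, fun c hc => h2 c (List.mem_cons_of_mem _ hc)⟩

/-- the box of size `m` -/
def Sb (m : ℕ) : Finset (List ℕ) := boxL m m

theorem mem_Sb (m : ℕ) (l : List ℕ) : l ∈ Sb m ↔ l.length ≤ m ∧ ∀ a ∈ l, a < m := mem_boxL m m l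

theorem nil_mem_Sb (m : ℕ) : [] ∈ Sb m := by rw [mem_Sb]; simp

theorem tail_mem_Sb {m a : ℕ} {l : List ℕ} (h : a :: l ∈ Sb m) : l ∈ Sb m := by
  rw [mem_Sb] at h ⊢
  refine ⟨by have := h.1; simp only [List.length_cons] at this; omega, fun c hc => h.2 c (List.mem_cons_of_mem _ hc)⟩

theorem tendsto_Sb : Tendsto Sb atTop atTop := by
  apply Filter.tendsto_atTop_finset_of_monotone
  · intro m m' h l hl
    rw [mem_Sb] at hl ⊢
    exact ⟨hl.1.trans h, fun a ha => (hl.2 a ha).trans_le h⟩
  · intro l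
    have hb : ∃ M, ∀ a ∈ l, a < M := by
      induction l with
      | nil => exact ⟨0, by simp⟩
      | cons b l ih =>
        obtain ⟨M, hM⟩ := ih
        refine ⟨max M (b + 1), fun a ha => ?_⟩
        rcases List.mem_cons.1 ha with rfl | ha
        · exact lt_max_of_lt_right (Nat.lt_succ_self _)
        · exact lt_max_of_lt_left (hM a ha)
    obtain ⟨M, hM⟩ := hb
    refine ⟨max M l.length, ?_⟩
    rw [mem_Sb]
    exact ⟨le_max_right _ _, fun a ha => lt_max_of_lt_left (hM a ha)⟩

/-- tail lemma for the square-summable functions -/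
theorem tail_L2 (φ : L2 →L[ℝ] ℝ) {ε : ℝ} (hε : 0 < ε) :
    ∀ᶠ m in atTop, ∀ u : L2, |φ (u - restr (Sb m) u)| ≤ ε * ‖u‖ := by
  have h1 : ∀ h : L2, Tendsto (fun m => restr (E := fun _ : List ℕ => ℝ) (Sb m) h) atTop (nhds h) :=
    fun h => tendsto_restr (E := fun _ : List ℕ => ℝ) tendsto_Sb h
  have h2 : ∀ m (a b : ℝ) (u v : L2),
      ‖a • restr (E := fun _ : List ℕ => ℝ) (Sb m) u + b • (v - restr (Sb m) v)‖ ^ 2
        ≤ a ^ 2 * ‖u‖ ^ 2 + b ^ 2 * ‖v‖ ^ 2 :=
    fun m a b u v => restr_block (E := fun _ : List ℕ => ℝ) (Sb m) u v a b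
  exact tail_small (E := L2) (fun m => restr (E := fun _ : List ℕ => ℝ) (Sb m)) h1 h2 φ hε

/-- shrinking property: functionals are small off large boxes -/
theorem key_small (x : StrongDual ℝ Y) {ε : ℝ} (hε : 0 < ε) :
    ∀ᶠ m in atTop, ∀ h : Y, (∀ n l, n < m → l ∈ Sb m → co h n l = 0) → |x h| ≤ ε * ‖h‖ := by
  obtain ⟨N, hN⟩ := (tail_blocks x (half_pos hε)).exists
  have hblk : ∀ n ∈ Finset.range N, ∀ᶠ m in atTop, ∀ u : L2,
      |(x.comp (inCLM n)) (u - restr (Sb m) u)| ≤ (ε / (2 * (N + 1))) * ‖u‖ := fun n _ =>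
    tail_L2 (x.comp (inCLM n)) (by positivity)
  have hall := (Filter.eventually_all_finset (Finset.range N)).2 hblk
  filter_upwards [hall, eventually_ge_atTop N] with m hm hmN h hh
  have e1 : x h = x (h - Pb N h) + x (Pb N h) := by rw [← map_add]; congr 1; abel
  rw [e1]
  have h1 := hN h
  have h2 : |x (Pb N h)| ≤ ∑ n ∈ Finset.range N, (ε / (2 * (N + 1))) * ‖h‖ := by
    rw [Pb_apply, map_sum]
    refine (Finset.abs_sum_le_sum_abs _ _).trans (Finset.sum_le_sum fun n hn => ?_)
    have hz : restr (Sb m) (prCLM n h) = 0 := by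
      apply lp.ext
      funext l
      rw [restr_apply]
      split_ifs with hl
      · rw [prCLM_apply]
        exact hh n l (by have := Finset.mem_range.1 hn; omega) hl
      · rfl
    have := hm n hn (prCLM n h)
    rw [hz, sub_zero] at this
    calc |x (inY n (prCLM n h))| ≤ (ε / (2 * (N + 1))) * ‖prCLM n h‖ := this
      _ ≤ (ε / (2 * (N + 1))) * ‖h‖ := by
        gcongr
        exact norm_prCLM_le n h
  rw [Finset.sum_const, Finset.card_range, nsmul_eq_mul] at h2
  have h3 : (N : ℝ) * (ε / (2 * (N + 1)) * ‖h‖) ≤ ε / 2 * ‖h‖ := by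
    have hN0 : (0:ℝ) ≤ N := Nat.cast_nonneg N
    have : (N : ℝ) * (ε / (2 * (N + 1))) ≤ ε / 2 := by
      rw [mul_div_assoc', div_le_div_iff₀ (by positivity) (by positivity)]
      nlinarith
    calc (N : ℝ) * (ε / (2 * (N + 1)) * ‖h‖) = ((N : ℝ) * (ε / (2 * (N + 1)))) * ‖h‖ := by ring
      _ ≤ ε / 2 * ‖h‖ := by gcongr
  calc |x (h - Pb N h) + x (Pb N h)| ≤ |x (h - Pb N h)| + |x (Pb N h)| := abs_add_le _ _
    _ ≤ ε / 2 * ‖h‖ + ε / 2 * ‖h‖ := by linarith
    _ = ε * ‖h‖ := by ring

/-- unit vectors -/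
def eY (n : ℕ) (l : List ℕ) : Y := inY n (lp.single 2 l 1)

theorem co_eY (n : ℕ) (l : List ℕ) (n' : ℕ) (l' : List ℕ) :
    co (eY n l) n' l' = if n' = n ∧ l'.length ≤ n ∧ l' = l then 1 else 0 := by
  unfold eY
  rw [co_inY]
  by_cases h1 : n' = n ∧ l'.length ≤ n
  · rw [if_pos h1]
    by_cases h2 : l' = l
    · subst h2
      rw [if_pos ⟨h1.1, h1.2, rfl⟩]
      simp
    · rw [if_neg (fun h => h2 h.2.2)]
      exact lp.single_apply_ne _ _ _ h2
  · rw [if_neg h1, if_neg (fun h => h1 ⟨h.1, h.2.1⟩)]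

/-- box projection -/
def Qb (m : ℕ) (h : Y) : Y := ∑ n ∈ Finset.range m, ∑ l ∈ Sb m, co h n l • eY n l

theorem co_Qb (m : ℕ) (h : Y) (n : ℕ) (l : List ℕ) :
    co (Qb m h) n l = if n < m ∧ l ∈ Sb m then co h n l else 0 := by
  unfold Qb
  rw [co_sum]
  by_cases hn : n < m
  · rw [Finset.sum_eq_single n]
    · rw [co_sum]
      by_cases hl : l ∈ Sb m
      · rw [if_pos ⟨hn, hl⟩, Finset.sum_eq_single l]
        · rw [co_smul, co_eY]
          by_cases hlen : l.length ≤ n
          · rw [if_pos ⟨rfl, hlen, rfl⟩, mul_one]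
          · rw [co_len h (by omega)]; simp
        · intro l' _ hl'
          rw [co_smul, co_eY, if_neg (fun h => hl' h.2.2.symm), mul_zero]
        · intro h'; exact absurd hl h'
      · rw [if_neg (fun h => hl h.2)]
        apply Finset.sum_eq_zero
        intro l' hl'
        rw [co_smul, co_eY, if_neg, mul_zero]
        rintro ⟨_, _, rfl⟩
        exact hl hl'
    · intro j _ hj
      rw [co_sum]
      apply Finset.sum_eq_zero
      intro l' _
      rw [co_smul, co_eY, if_neg (fun h => hj h.1.symm), mul_zero]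
    · intro h'; exact absurd (Finset.mem_range.2 hn) h'
  · rw [if_neg (fun h => hn h.1)]
    apply Finset.sum_eq_zero
    intro j hj
    rw [co_sum]
    apply Finset.sum_eq_zero
    intro l' _
    rw [co_smul, co_eY, if_neg, mul_zero]
    rintro ⟨rfl, _⟩
    exact hn (Finset.mem_range.1 hj)

theorem cum_congr {f g : List ℕ → ℝ} {m : ℕ} (H : ∀ l ∈ Sb m, f l = g l) (l : List ℕ)
    (hl : l ∈ Sb m) : cum f l = cum g l := by
  induction l with
  | nil => simp only [cum]; exact H _ hl
  | cons a l ih => simp only [cum]; rw [H _ hl, ih (tail_mem_Sb hl)]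

theorem cum_cut (f : List ℕ → ℝ) (m : ℕ) (l : List ℕ) :
    ∃ l', cum (fun s => if s ∈ Sb m then f s else 0) l = cum f l' := by
  induction l with
  | nil => exact ⟨[], by simp [cum, nil_mem_Sb]⟩
  | cons a l ih =>
    by_cases hl : a :: l ∈ Sb m
    · exact ⟨a :: l, cum_congr (m := m) (fun s hs => by simp [hs]) _ hl⟩
    · obtain ⟨l', hl'⟩ := ih
      refine ⟨l', ?_⟩
      rw [← hl']
      simp only [cum, if_neg hl, zero_add]

theorem norm_Qb_le (m : ℕ) (h : Y) : ‖Qb m h‖ ≤ ‖h‖ := by
  have hle : ∀ n l, co (Qb m h) n l ^ 2 ≤ co h n l ^ 2 := by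
    intro n l
    rw [co_Qb]
    split_ifs
    · exact le_rfl
    · simp only [ne_eq, OfNat.ofNat_ne_zero, not_false_eq_true, zero_pow]; positivity
  have H := norm_sq_le (Qb m h) (fun n => bl h n ^ 2) (fun n => sq_nonneg _)
    (fun n => (Summable.tsum_le_tsum (hle n) (summable_co _ n) (summable_co _ n)).trans
      (tsum_co_le h n))
    (fun n l => by
      have : |cum (co (Qb m h) n) l| ≤ bl h n := by
        by_cases hn : n < m
        · have e : co (Qb m h) n = fun s => if s ∈ Sb m then co h n s else 0 := by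
            funext s
            rw [co_Qb]
            simp [hn]
          rw [e]
          obtain ⟨l', hl'⟩ := cum_cut (co h n) m l
          rw [hl']
          exact abs_cum_le_bl h n l'
        · have e : co (Qb m h) n = fun _ => 0 := by
            funext s
            rw [co_Qb]
            simp [hn]
          rw [e, cum_zero, abs_zero]
          exact bl_nonneg h n
      exact sq_le_sq' (abs_le.1 this).1 (abs_le.1 this).2)
    (summable_bl h)
  rw [← norm_sq_bl] at H
  exact (abs_le_of_sq_le_sq H (norm_nonneg _)).trans' (le_abs_self _)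

/-! ### Reflexivity -/

/-- representation of functionals on `L2` -/
theorem riesz_L2 (φ : L2 →L[ℝ] ℝ) : ∃ u : L2, ∀ v : L2, φ v = inner ℝ u v := by
  refine ⟨(InnerProductSpace.toDual ℝ L2).symm φ, fun v => ?_⟩
  rw [InnerProductSpace.toDual_symm_apply]

/-- the functional on `Y` given by a vector in a block -/
def vF (n : ℕ) : L2 →L[ℝ] StrongDual ℝ Y :=
  ((ContinuousLinearMap.compL ℝ Y L2 ℝ).flip (prCLM n)).comp (innerSL ℝ : L2 →L[ℝ] L2 →L[ℝ] ℝ)

theorem vF_apply (n : ℕ) (v : L2) (h : Y) : vF n v h = inner ℝ v (prCLM n h) := rfl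

theorem inner_single (v : L2) (l : List ℕ) : inner ℝ (lp.single 2 l (1:ℝ) : L2) v = v l := by
  rw [lp.inner_single_left]
  simp

theorem coF_eq (n : ℕ) (l : List ℕ) : coF n l = vF n (lp.single 2 l 1) := by
  ext h
  rw [vF_apply, inner_single, coF_apply, prCLM_apply]

theorem reflexive_Y (φ : StrongDual ℝ (StrongDual ℝ Y)) : ∃ y : Y, ∀ x : StrongDual ℝ Y, φ x = x y := by
  -- block vectors
  choose u hu using fun n => riesz_L2 (φ.comp (vF n))
  have hco : ∀ n l, φ (coF n l) = u n l := by
    intro n l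
    rw [coF_eq]
    have := hu n (lp.single 2 l 1)
    rw [real_inner_comm, inner_single] at this
    exact this
  have hcu : ∀ n l, φ (cuF n l) = cum (fun s => u n s) l := by
    intro n l
    induction l with
    | nil =>
      have : cuF n [] = coF n [] := by
        ext h; rw [cuF_apply, coF_apply]; rfl
      rw [this, hco]; rfl
    | cons a l ih =>
      rw [cuF_cons, map_add, ih, hco]
      simp only [cum]; ring
  have hlen : ∀ (n : ℕ) (l : List ℕ), n < l.length → u n l = 0 := by
    intro n l hl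
    rw [← hco]
    have : coF n l = 0 := by
      ext h; rw [coF_apply, co_len h hl]; rfl
    rw [this, map_zero]
  -- truncated vectors
  let yN : ℕ → Y := fun N => ∑ n ∈ Finset.range N, inY n (u n)
  have hyN : ∀ N (x : StrongDual ℝ Y), x (yN N) = φ (x.comp (Pb N)) := by
    intro N x
    have e : x.comp (Pb N) = ∑ n ∈ Finset.range N, (x.comp (inCLM n)).comp (prCLM n) := by
      ext h
      rw [ContinuousLinearMap.comp_apply, Pb_apply, map_sum, sum_apply]
      rfl
    have e1 : x (yN N) = ∑ n ∈ Finset.range N, x (inY n (u n)) :=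
      map_sum x (fun n => inY n (u n)) (Finset.range N)
    rw [e, e1]
    rw [map_sum]
    refine Finset.sum_congr rfl fun n _ => ?_
    obtain ⟨v, hv⟩ := riesz_L2 (x.comp (inCLM n))
    have e2 : (x.comp (inCLM n)).comp (prCLM n) = vF n v := by
      ext h
      rw [ContinuousLinearMap.comp_apply, hv, vF_apply]
    rw [e2]
    have h3 := hu n v
    rw [ContinuousLinearMap.comp_apply] at h3
    rw [h3, real_inner_comm, ← hv (u n)]
    rfl
  have hPb : ∀ N, ‖Pb N‖ ≤ 1 := by
    intro N
    refine ContinuousLinearMap.opNorm_le_bound _ zero_le_one fun h => ?_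
    rw [one_mul]
    have h1 := restr_block (Finset.range N) (toZ h) (0 : Z) 1 0
    have e : ‖Pb N h‖ = ‖(1:ℝ) • restr (Finset.range N) (toZ h) + (0:ℝ) • ((0:Z) - restr (Finset.range N) (0 : Z))‖ := by
      rw [← coe_Pb, one_smul, zero_smul, add_zero, norm_toZ]
    rw [← e] at h1
    have h2 : ‖Pb N h‖ ^ 2 ≤ ‖h‖ ^ 2 := by
      refine h1.trans (le_of_eq ?_)
      rw [one_pow, one_mul, zero_pow two_ne_zero, zero_mul, add_zero, norm_toZ]
    exact (abs_le_of_sq_le_sq h2 (norm_nonneg _)).trans' (le_abs_self _)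
  have hyb : ∀ N, ‖yN N‖ ≤ ‖φ‖ := by
    intro N
    refine NormedSpace.norm_le_dual_bound ℝ (yN N) (norm_nonneg φ) fun x => ?_
    rw [hyN]
    calc ‖φ (x.comp (Pb N))‖ ≤ ‖φ‖ * ‖x.comp (Pb N)‖ := φ.le_opNorm _
      _ ≤ ‖φ‖ * (‖x‖ * ‖Pb N‖) := by gcongr; exact ContinuousLinearMap.opNorm_comp_le _ _
      _ ≤ ‖φ‖ * (‖x‖ * 1) := by gcongr; exact hPb N
      _ = ‖φ‖ * ‖x‖ := by ring
  have hcoy : ∀ N n l, co (yN N) n l = if n < N then u n l else 0 := by
    intro N n l
    change co (∑ n ∈ Finset.range N, inY n (u n)) n l = _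
    rw [co_sum]
    by_cases hn : n < N
    · rw [if_pos hn, Finset.sum_eq_single n]
      · rw [co_inY]
        by_cases hl : l.length ≤ n
        · rw [if_pos ⟨rfl, hl⟩]
        · rw [if_neg (fun h => hl h.2), hlen n l (by omega)]
      · intro j _ hj
        rw [co_inY, if_neg (fun h => hj h.1.symm)]
      · intro h'; exact absurd (Finset.mem_range.2 hn) h'
    · rw [if_neg hn]
      apply Finset.sum_eq_zero
      intro j hj
      rw [co_inY, if_neg]
      intro h'
      have := Finset.mem_range.1 hj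
      omega
  -- block sizes
  let b : ℕ → ℝ := fun n => bl (yN (n + 1)) n
  have hbN : ∀ N n, n < N → bl (yN N) n = b n := by
    intro N n hn
    change ‖toZ (yN N) n‖ = ‖toZ (yN (n + 1)) n‖
    rw [blk_eq (h := yN N) (k := yN (n + 1)) (n := n) (m := n)]
    intro l
    rw [hcoy, hcoy, if_pos hn, if_pos (Nat.lt_succ_self n)]
  have hbsum : Summable fun n => b n ^ 2 := by
    refine summable_of_sum_range_le (c := ‖φ‖ ^ 2) (fun n => sq_nonneg _) fun N => ?_
    calc ∑ n ∈ Finset.range N, b n ^ 2 = ∑ n ∈ Finset.range N, bl (yN N) n ^ 2 := by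
          refine Finset.sum_congr rfl fun n hn => ?_
          rw [hbN N n (Finset.mem_range.1 hn)]
      _ ≤ ∑' n, bl (yN N) n ^ 2 := (summable_bl _).sum_le_tsum _ (fun _ _ => sq_nonneg _)
      _ = ‖yN N‖ ^ 2 := (norm_sq_bl _).symm
      _ ≤ ‖φ‖ ^ 2 := pow_le_pow_left₀ (norm_nonneg _) (hyb N) 2
  have hco1 : ∀ n l, co (yN (n + 1)) n l = u n l := by
    intro n l; rw [hcoy, if_pos (Nat.lt_succ_self n)]
  have hco1' : ∀ n, co (yN (n + 1)) n = fun l => u n l := fun n => funext (hco1 n)
  let y : Y := mkY (fun n l => u n l) hlen b (fun n => bl_nonneg _ _)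
    (fun n => by
      have := summable_co (yN (n + 1)) n
      rw [hco1' n] at this
      exact this)
    (fun n => by
      have := tsum_co_le (yN (n + 1)) n
      rw [hco1' n] at this
      exact this)
    (fun n l => by
      have := abs_cum_le_bl (yN (n + 1)) n l
      rw [hco1' n] at this
      exact this)
    hbsum
  refine ⟨y, fun x => ?_⟩
  have hy1 : ∀ N, Pb N y = yN N := by
    intro N
    apply Y_ext
    intro n l
    rw [co_Pb, hcoy]
    rfl
  have t1 : Tendsto (fun N => x (Pb N y)) atTop (nhds (x y)) :=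
    (x.continuous.tendsto y).comp (tendsto_Pb y)
  have t2 : Tendsto (fun N => φ (x.comp (Pb N))) atTop (nhds (φ x)) := by
    refine (φ.continuous.tendsto x).comp ?_
    rw [Metric.tendsto_nhds]
    intro ε hε
    filter_upwards [tail_blocks x (half_pos hε)] with N hN
    rw [dist_comm, dist_eq_norm]
    have : ‖x - x.comp (Pb N)‖ ≤ ε / 2 := by
      refine ContinuousLinearMap.opNorm_le_bound _ (by positivity) fun h => ?_
      have := hN h
      rw [map_sub] at this
      exact this
    linarith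
  have e : (fun N => φ (x.comp (Pb N))) = fun N => x (Pb N y) := by
    funext N
    rw [hy1, hyN]
  rw [e] at t2
  exact tendsto_nhds_unique t2 t1

end

end Vale.Agent.P069
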