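import Mathlib

/-!
Definitions used in the statement: finite-codimensional closed subspaces, equivalent norms,
the asymptotic moduli, and renormability.
-/

namespace Vale.Agent.P069

noncomputable section

variable (X : Type*) [NormedAddCommGroup X] [NormedSpace ℝ X]

/-- The closed linear subspaces of finite codimension of `X`. -/
def Cof : Set (Submodule ℝ X) :=
  {F | IsClosed (F : Set X) ∧ FiniteDimensional ℝ (X ⧸ F)}

variable {X}

/-- `N` is a norm on `X` equivalent to the given one. -/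
def IsEquivNorm (N : Seminorm ℝ X) : Prop :=
  ∃ a b : ℝ, 0 < a ∧ ∀ x : X, a * ‖x‖ ≤ N x ∧ N x ≤ b * ‖x‖

/-- The modulus of asymptotic uniform convexity of `N` at `t`. -/
def aucModulus (N : Seminorm ℝ X) (t : ℝ) : EReal :=
  ⨅ x ∈ {x : X | N x = 1}, ⨆ F ∈ Cof X, ⨅ y ∈ {y : X | y ∈ F ∧ N y = 1},
    ((N (x + t • y) - 1 : ℝ) : EReal)

/-- The modulus of asymptotic midpoint uniform convexity of `N` at `t`. -/
def amucModulus (N : Seminorm ℝ X) (t : ℝ) : EReal :=
  ⨅ x ∈ {x : X | N x = 1}, ⨆ F ∈ Cof X, ⨅ y ∈ {y : X | y ∈ F ∧ N y = 1},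
    ((max (N (x + t • y)) (N (x - t • y)) - 1 : ℝ) : EReal)

/-- `N` is asymptotically uniformly convex. -/
def IsAUC (N : Seminorm ℝ X) : Prop := ∀ t : ℝ, 0 < t → 0 < aucModulus N t

/-- `N` is asymptotically midpoint uniformly convex. -/
def IsAMUC (N : Seminorm ℝ X) : Prop := ∀ t : ℝ, 0 < t → 0 < amucModulus N t

variable (X)

/-- `X` has an equivalent AUC norm. -/
def AUCRenormable : Prop := ∃ N : Seminorm ℝ X, IsEquivNorm N ∧ IsAUC N

/-- `X` has an equivalent AMUC norm. -/
def AMUCRenormable : Prop := ∃ N : Seminorm ℝ X, IsEquivNorm N ∧ IsAMUC N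

/-- `X` is reflexive: the canonical map into the bidual is onto. -/
def IsReflexiveSpace : Prop := Function.Surjective (NormedSpace.inclusionInDoubleDual ℝ X)

end

end Vale.Agent.P069
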