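import Mathlib
import Vale.Agent.P069.Box
import Vale.Agent.P069.Defs

/-!
The dual norm of the dual of the tree space is asymptotically midpoint uniformly convex.
-/

namespace Vale.Agent.P069

open scoped ENNReal
open Filter

noncomputable section

/-- first truncation -/
def T1 (s w : ℝ) : ℝ := if 0 ≤ s then max (-w) 0 else -max w 0
/-- second truncation -/
def T2 (s w : ℝ) : ℝ := if 0 ≤ s then max w 0 else -max (-w) 0

/-- the properties of a truncation -/
structure IsTrunc (T : ℝ → ℝ → ℝ) : Prop where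
  lip : ∀ s w w', |T s w - T s w'| ≤ |w - w'|
  zero : ∀ s, T s 0 = 0
  bd : ∀ s w θ, 0 ≤ θ → (s - θ * T s w) ^ 2 ≤ s ^ 2 + θ ^ 2 * w ^ 2

theorem max_lip (a b : ℝ) : |max a 0 - max b 0| ≤ |a - b| := by
  have := abs_max_sub_max_le_abs a b 0
  simpa using this

theorem bd_aux {s v w θ : ℝ} (hθ : 0 ≤ θ) (hs : 0 ≤ s) (hv : 0 ≤ v) (hvw : v ^ 2 ≤ w ^ 2) :
    (s - θ * v) ^ 2 ≤ s ^ 2 + θ ^ 2 * w ^ 2 := by
  nlinarith [mul_nonneg (mul_nonneg hθ hs) hv, mul_le_mul_of_nonneg_left hvw (sq_nonneg θ)]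

theorem max_sq_le (w : ℝ) : max w 0 ^ 2 ≤ w ^ 2 := by
  rcases le_total w 0 with h | h
  · rw [max_eq_right h]; simp only [ne_eq, OfNat.ofNat_ne_zero, not_false_eq_true, zero_pow]; positivity
  · rw [max_eq_left h]

theorem T1_trunc : IsTrunc T1 where
  lip := by
    intro s w w'
    unfold T1
    split_ifs
    · refine (max_lip _ _).trans_eq ?_
      rw [show -w - -w' = -(w - w') by ring, abs_neg]
    · rw [show -max w 0 - -max w' 0 = -(max w 0 - max w' 0) by ring, abs_neg]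
      exact max_lip _ _
  zero := by intro s; unfold T1; simp
  bd := by
    intro s w θ hθ
    unfold T1
    split_ifs with h
    · refine bd_aux hθ h (le_max_right _ _) ?_
      have := max_sq_le (-w)
      rwa [neg_sq] at this
    · have := bd_aux (s := -s) (v := max w 0) (w := w) hθ (by linarith) (le_max_right _ _) (max_sq_le w)
      nlinarith

theorem T2_trunc : IsTrunc T2 where
  lip := by
    intro s w w'
    unfold T2
    split_ifs
    · exact max_lip _ _
    · rw [show -max (-w) 0 - -max (-w') 0 = -(max (-w) 0 - max (-w') 0) by ring, abs_neg]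
      refine (max_lip _ _).trans_eq ?_
      rw [show -w - -w' = -(w - w') by ring, abs_neg]
  zero := by intro s; unfold T2; simp
  bd := by
    intro s w θ hθ
    unfold T2
    split_ifs with h
    · exact bd_aux hθ h (le_max_right _ _) (max_sq_le w)
    · have h2 := max_sq_le (-w)
      rw [neg_sq] at h2
      have := bd_aux (s := -s) (v := max (-w) 0) (w := w) hθ (by linarith) (le_max_right _ _) h2
      nlinarith

theorem T2_sub_T1 (s w : ℝ) : T2 s w - T1 s w = w := by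
  unfold T1 T2
  have h : max w 0 - max (-w) 0 = w := by
    rcases le_total w 0 with h | h
    · rw [max_eq_right h, max_eq_left (by linarith)]; ring
    · rw [max_eq_left h, max_eq_right (by linarith)]; ring
  split_ifs <;> linarith

/-- coordinates with prescribed cumulative sums -/
def dif (G : List ℕ → ℝ) : List ℕ → ℝ
  | [] => G []
  | (a :: l) => G (a :: l) - G l

theorem cum_dif (G : List ℕ → ℝ) (l : List ℕ) : cum (dif G) l = G l := by
  induction l with
  | nil => rfl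
  | cons a l ih => simp only [cum, dif, ih]; ring

theorem dif_cum (f : List ℕ → ℝ) (l : List ℕ) : dif (cum f) l = f l := by
  cases l with
  | nil => rfl
  | cons a l => simp only [dif, cum]; ring

section pert

variable {m : ℕ} {f k : Y}
  (hf : ∀ n l, co f n l ≠ 0 → n < m ∧ l ∈ Sb m)
  (hk : ∀ n l, n < m → l ∈ Sb m → co k n l = 0)
  {T : ℝ → ℝ → ℝ} (hT : IsTrunc T)

/-- coordinates of the perturbation -/
def pc (f k : Y) (T : ℝ → ℝ → ℝ) (n : ℕ) : List ℕ → ℝ :=
  dif (fun l => T (cum (co f n) l) (cum (co k n) l))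

include hk in
theorem cum_k_zero {n : ℕ} (hn : n < m) {l : List ℕ} (hl : l ∈ Sb m) : cum (co k n) l = 0 := by
  rw [cum_congr (g := fun _ => 0) (m := m) (fun s hs => hk n s hn hs) l hl, cum_zero]

include hf hk hT in
theorem pc_le (n : ℕ) (l : List ℕ) : |pc f k T n l| ≤ |co k n l| := by
  cases l with
  | nil =>
    change |T (cum (co f n) []) (cum (co k n) [])| ≤ _
    have := hT.lip (cum (co f n) []) (cum (co k n) []) 0
    rw [hT.zero, sub_zero, sub_zero] at this
    exact this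
  | cons a l =>
    change |T (cum (co f n) (a :: l)) (cum (co k n) (a :: l)) -
      T (cum (co f n) l) (cum (co k n) l)| ≤ _
    by_cases hb : n < m ∧ a :: l ∈ Sb m
    · rw [cum_k_zero hk hb.1 hb.2, cum_k_zero hk hb.1 (tail_mem_Sb hb.2), hT.zero, hT.zero]
      simp
    · have h0 : co f n (a :: l) = 0 := by
        by_contra h
        exact hb (hf n _ h)
      have h1 : cum (co f n) (a :: l) = cum (co f n) l := by simp only [cum, h0, zero_add]
      rw [h1]
      refine (hT.lip _ _ _).trans_eq ?_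
      simp only [cum]
      rw [add_sub_cancel_right]

include hT in
theorem pc_cum_le (n : ℕ) (l : List ℕ) : |cum (pc f k T n) l| ≤ |cum (co k n) l| := by
  unfold pc
  rw [cum_dif]
  have := hT.lip (cum (co f n) l) (cum (co k n) l) 0
  rwa [hT.zero, sub_zero, sub_zero] at this

include hf hk hT in
theorem exists_pert : ∃ ρ : Y, (∀ n l, co ρ n l = pc f k T n l) ∧ ‖ρ‖ ≤ ‖k‖ ∧
    (∀ n l, n < m → l ∈ Sb m → co ρ n l = 0) ∧
    ∀ θ : ℝ, 0 ≤ θ → ‖f - θ • ρ‖ ^ 2 ≤ ‖f‖ ^ 2 + θ ^ 2 * ‖k‖ ^ 2 := by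
  have hsq : ∀ n l, pc f k T n l ^ 2 ≤ co k n l ^ 2 := fun n l => by
    have := pc_le hf hk hT n l
    exact sq_le_sq.2 this
  have hsum : ∀ n, Summable fun l => pc f k T n l ^ 2 := fun n =>
    Summable.of_nonneg_of_le (fun _ => sq_nonneg _) (hsq n) (summable_co k n)
  have hts : ∀ n, ∑' l, pc f k T n l ^ 2 ≤ bl k n ^ 2 := fun n =>
    (Summable.tsum_le_tsum (hsq n) (hsum n) (summable_co k n)).trans (tsum_co_le k n)
  have hcum : ∀ n l, |cum (pc f k T n) l| ≤ bl k n := fun n l =>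
    (pc_cum_le hT n l).trans (abs_cum_le_bl k n l)
  have hlen : ∀ (n : ℕ) (l : List ℕ), n < l.length → pc f k T n l = 0 := by
    intro n l hl
    have := pc_le hf hk hT n l
    rw [co_len k hl, abs_zero] at this
    exact abs_nonpos_iff.1 this
  refine ⟨mkY (pc f k T) hlen (bl k) (bl_nonneg k) hsum hts hcum (summable_bl k),
    fun n l => rfl, ?_, ?_, ?_⟩
  · have H := norm_sq_le (mkY (pc f k T) hlen (bl k) (bl_nonneg k) hsum hts hcum (summable_bl k))
      (fun n => bl k n ^ 2) (fun n => sq_nonneg _) hts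
      (fun n l => sq_le_sq' (abs_le.1 (hcum n l)).1 (abs_le.1 (hcum n l)).2) (summable_bl k)
    rw [← norm_sq_bl] at H
    exact (abs_le_of_sq_le_sq H (norm_nonneg _)).trans' (le_abs_self _)
  · intro n l hn hl
    change pc f k T n l = 0
    have := pc_le hf hk hT n l
    rw [hk n l hn hl, abs_zero] at this
    exact abs_nonpos_iff.1 this
  · intro θ hθ
    set ρ := mkY (pc f k T) hlen (bl k) (bl_nonneg k) hsum hts hcum (summable_bl k) with hρ
    have hcoρ : ∀ n l, co ρ n l = pc f k T n l := fun n l => rfl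
    have hpt : ∀ n l, co (f - θ • ρ) n l ^ 2 ≤ co f n l ^ 2 + θ ^ 2 * co k n l ^ 2 := by
      intro n l
      rw [co_sub, co_smul, hcoρ]
      by_cases h0 : co f n l = 0
      · rw [h0]
        nlinarith [mul_le_mul_of_nonneg_left (hsq n l) (sq_nonneg θ)]
      · have hb := hf n l h0
        have h1 : pc f k T n l = 0 := by
          have := pc_le hf hk hT n l
          rw [hk n l hb.1 hb.2, abs_zero] at this
          exact abs_nonpos_iff.1 this
        rw [h1, hk n l hb.1 hb.2]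
        simp
    have H := norm_sq_le (f - θ • ρ) (fun n => bl f n ^ 2 + θ ^ 2 * bl k n ^ 2)
      (fun n => by positivity)
      (fun n => by
        calc ∑' l, co (f - θ • ρ) n l ^ 2 ≤ ∑' l, (co f n l ^ 2 + θ ^ 2 * co k n l ^ 2) :=
              Summable.tsum_le_tsum (hpt n) (summable_co _ n)
                ((summable_co f n).add ((summable_co k n).mul_left _))
          _ = ∑' l, co f n l ^ 2 + θ ^ 2 * ∑' l, co k n l ^ 2 := by
              rw [Summable.tsum_add (summable_co f n) ((summable_co k n).mul_left _), tsum_mul_left]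
          _ ≤ _ := by
              gcongr
              · exact tsum_co_le f n
              · exact tsum_co_le k n)
      (fun n l => by
        have e : cum (co (f - θ • ρ) n) l = cum (co f n) l - θ * T (cum (co f n) l) (cum (co k n) l) := by
          rw [← cuF_apply, map_sub, map_smul, cuF_apply, cuF_apply]
          have : co ρ n = pc f k T n := rfl
          rw [this]
          unfold pc
          rw [cum_dif, smul_eq_mul]
        rw [e]
        refine (hT.bd _ _ θ hθ).trans ?_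
        have h1 := abs_cum_le_bl f n l
        have h2 := abs_cum_le_bl k n l
        have h3 : cum (co f n) l ^ 2 ≤ bl f n ^ 2 := sq_le_sq' (abs_le.1 h1).1 (abs_le.1 h1).2
        have h4 : cum (co k n) l ^ 2 ≤ bl k n ^ 2 := sq_le_sq' (abs_le.1 h2).1 (abs_le.1 h2).2
        gcongr)
      ((summable_bl f).add ((summable_bl k).mul_left _))
    rw [Summable.tsum_add (summable_bl f) ((summable_bl k).mul_left _), tsum_mul_left,
      ← norm_sq_bl, ← norm_sq_bl] at H
    exact H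

end pert

/-- The counterexample space. -/
abbrev X := StrongDual ℝ Y

/-- functionals vanishing on the unit vectors of a box -/
def boxMap (m : ℕ) : X →L[ℝ] (↥(Finset.range m ×ˢ Sb m) → ℝ) :=
  ContinuousLinearMap.pi fun p => NormedSpace.inclusionInDoubleDual ℝ Y (eY p.1.1 p.1.2)

theorem boxMap_apply (m : ℕ) (y : X) (p : ↥(Finset.range m ×ˢ Sb m)) :
    boxMap m y p = y (eY p.1.1 p.1.2) := rfl

theorem ker_mem_Cof {V : Type*} [NormedAddCommGroup V] [NormedSpace ℝ V] {ι : Type*} [Fintype ι]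
    (L : V →L[ℝ] (ι → ℝ)) : LinearMap.ker (L : V →ₗ[ℝ] (ι → ℝ)) ∈ Cof V := by
  refine ⟨L.isClosed_ker, ?_⟩
  have e := LinearMap.quotKerEquivRange (L : V →ₗ[ℝ] (ι → ℝ))
  exact LinearEquiv.finiteDimensional e.symm

theorem exists_near {V : Type*} [NormedAddCommGroup V] [NormedSpace ℝ V] (x : StrongDual ℝ V)
    (hx : ‖x‖ = 1) {ε : ℝ} (hε : 0 < ε) : ∃ u : V, ‖u‖ ≤ 1 ∧ 1 - ε < x u := by
  rcases le_or_gt (1 - ε) 0 with h1 | h1
  · rcases lt_or_eq_of_le h1 with h2 | h2
    · exact ⟨0, by simp, by simpa using h2⟩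
    · obtain ⟨u, hu1, hu2⟩ := x.exists_lt_apply_of_lt_opNorm (r := 0) (by rw [hx]; norm_num)
      rcases le_or_gt 0 (x u) with h | h
      · exact ⟨u, hu1.le, by rw [Real.norm_of_nonneg h] at hu2; rw [h2]; exact hu2⟩
      · refine ⟨-u, by rw [norm_neg]; exact hu1.le, ?_⟩
        rw [h2, map_neg]; linarith
  · obtain ⟨u, hu1, hu2⟩ := x.exists_lt_apply_of_lt_opNorm (r := 1 - ε) (by rw [hx]; linarith)
    rcases le_or_gt 0 (x u) with h | h
    · exact ⟨u, hu1.le, by rwa [Real.norm_of_nonneg h] at hu2⟩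
    · refine ⟨-u, by rw [norm_neg]; exact hu1.le, ?_⟩
      rw [Real.norm_of_nonpos h.le] at hu2
      rwa [map_neg]

theorem final_ineq {t η K ε θ D M xf yf xr1 xr2 yr1 yr2 yk : ℝ} (ht : 0 < t) (hη : 0 < η)
    (hK : K = 3 + t / 4 + t ^ 2 / 16) (hεd : ε = η / K) (hθ : θ = t / 8)
    (hDsq : D ^ 2 = 1 + t ^ 2 / 16) (hD1 : 1 ≤ D)
    (i1 : xf - θ * xr1 + t * (yf - θ * yr1) ≤ M * D)
    (i2 : xf - θ * xr2 - t * (yf - θ * yr2) ≤ M * D)
    (hxf : 1 - 3 * ε ≤ xf) (hyk : 1 - ε ≤ yk) (hx1 : xr1 ≤ 2 * ε) (hx2 : xr2 ≤ 2 * ε)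
    (hy12 : yr2 - yr1 = yk) : D - 1 - η ≤ M - 1 := by
  have hK0 : 0 < K := by rw [hK]; positivity
  have hε : 0 < ε := by rw [hεd]; positivity
  have hθ0 : 0 ≤ θ := by rw [hθ]; positivity
  have hmain : 2 * (1 + t ^ 2 / 16) - 2 * (ε * K) ≤ 2 * (M * D) := by
    have h1 : θ * xr1 ≤ θ * (2 * ε) := mul_le_mul_of_nonneg_left hx1 hθ0
    have h2 : θ * xr2 ≤ θ * (2 * ε) := mul_le_mul_of_nonneg_left hx2 hθ0
    have h3 : t * θ * (1 - ε) ≤ t * θ * yk := mul_le_mul_of_nonneg_left hyk (by positivity)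
    have h4 : t * θ * yk = t * θ * yr2 - t * θ * yr1 := by rw [← hy12]; ring
    have h5 : 2 * (1 - 3 * ε) - 2 * (θ * (2 * ε)) + t * θ * (1 - ε) ≤ 2 * (M * D) := by
      nlinarith
    have h6 : 2 * (1 - 3 * ε) - 2 * (θ * (2 * ε)) + t * θ * (1 - ε) ≥
        2 * (1 + t ^ 2 / 16) - 2 * (ε * K) := by
      rw [hθ, hK]
      nlinarith [mul_pos hε (pow_pos ht 2)]
    linarith
  have hεK : ε * K = η := by rw [hεd]; field_simp
  rw [hεK, ← hDsq] at hmain
  have hfin : D - η ≤ M := by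
    have h1 : D * (D - η) ≤ D * M := by nlinarith
    exact le_of_mul_le_mul_left h1 (by linarith)
  linarith

theorem amuc_core (x : X) (hx : ‖x‖ = 1) {t : ℝ} (ht : 0 < t) {η : ℝ} (hη : 0 < η) :
    ∃ F ∈ Cof X, ∀ y ∈ F, ‖y‖ = 1 →
      Real.sqrt (1 + t ^ 2 / 16) - 1 - η ≤ max ‖x + t • y‖ ‖x - t • y‖ - 1 := by
  set K := 3 + t / 4 + t ^ 2 / 16 with hK
  have hK0 : 0 < K := by positivity
  set ε := η / K with hεd
  have hε : 0 < ε := by positivity
  obtain ⟨m, hm⟩ := (key_small x hε).exists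
  obtain ⟨u, hu1, hu2⟩ := exists_near x hx hε
  refine ⟨LinearMap.ker ((boxMap m : X →L[ℝ] (↥(Finset.range m ×ˢ Sb m) → ℝ)) :
    X →ₗ[ℝ] (↥(Finset.range m ×ˢ Sb m) → ℝ)), ker_mem_Cof (boxMap m), fun y hyF hy => ?_⟩
  obtain ⟨u', hu1', hu2'⟩ := exists_near y hy hε
  set f := Qb m u with hfd
  set k := u' - Qb m u' with hkd
  have hf : ∀ n l, co f n l ≠ 0 → n < m ∧ l ∈ Sb m := by
    intro n l h
    rw [hfd, co_Qb] at h
    by_contra h'
    rw [if_neg h'] at h
    exact h rfl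
  have hk : ∀ n l, n < m → l ∈ Sb m → co k n l = 0 := by
    intro n l h1 h2
    rw [hkd, co_sub, co_Qb, if_pos ⟨h1, h2⟩, sub_self]
  have hfn : ‖f‖ ≤ 1 := (norm_Qb_le m u).trans hu1
  have hkn : ‖k‖ ≤ 2 := by
    calc ‖k‖ ≤ ‖u'‖ + ‖Qb m u'‖ := norm_sub_le _ _
      _ ≤ 1 + 1 := add_le_add hu1' ((norm_Qb_le m u').trans hu1')
      _ = 2 := by norm_num
  have hxf : 1 - 3 * ε ≤ x f := by
    have h1 := hm (u - Qb m u) (fun n l h1 h2 => by rw [co_sub, co_Qb, if_pos ⟨h1, h2⟩, sub_self])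
    have h2 : ‖u - Qb m u‖ ≤ 2 := by
      calc ‖u - Qb m u‖ ≤ ‖u‖ + ‖Qb m u‖ := norm_sub_le _ _
        _ ≤ 1 + 1 := add_le_add hu1 ((norm_Qb_le m u).trans hu1)
        _ = 2 := by norm_num
    rw [map_sub] at h1
    have h3 := (abs_le.1 h1).2
    have h4 : ε * ‖u - Qb m u‖ ≤ ε * 2 := by gcongr
    linarith
  have hyk : 1 - ε ≤ y k := by
    have h0 : y (Qb m u') = 0 := by
      unfold Qb
      rw [map_sum]
      apply Finset.sum_eq_zero
      intro n hn
      rw [map_sum]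
      apply Finset.sum_eq_zero
      intro l hl
      rw [map_smul]
      have : y (eY n l) = 0 := by
        have h1 := congrFun (LinearMap.mem_ker.1 hyF)
          (⟨(n, l), Finset.mem_product.2 ⟨hn, hl⟩⟩ : ↥(Finset.range m ×ˢ Sb m))
        exact h1
      rw [this, smul_zero]
    rw [hkd, map_sub, h0]
    linarith
  obtain ⟨ρ1, hρ1c, hρ1n, hρ1z, hρ1⟩ := exists_pert hf hk T1_trunc
  obtain ⟨ρ2, hρ2c, hρ2n, hρ2z, hρ2⟩ := exists_pert hf hk T2_trunc
  have hρk : ρ2 - ρ1 = k := by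
    apply Y_ext
    intro n l
    rw [co_sub, hρ1c, hρ2c, ← dif_cum (co k n) l]
    unfold pc
    cases l with
    | nil => simp only [dif]; exact T2_sub_T1 _ _
    | cons a l =>
      simp only [dif]
      have h1 := T2_sub_T1 (cum (co f n) (a :: l)) (cum (co k n) (a :: l))
      have h2 := T2_sub_T1 (cum (co f n) l) (cum (co k n) l)
      linarith
  set θ := t / 8 with hθ
  have hθ0 : 0 ≤ θ := by positivity
  set D := Real.sqrt (1 + t ^ 2 / 16) with hD
  have hDsq : D ^ 2 = 1 + t ^ 2 / 16 := Real.sq_sqrt (by positivity)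
  have hD1 : 1 ≤ D := by
    rw [hD]
    exact Real.one_le_sqrt.2 (by nlinarith [sq_nonneg t])
  have hn : ∀ ρ : Y, ‖f - θ • ρ‖ ^ 2 ≤ ‖f‖ ^ 2 + θ ^ 2 * ‖k‖ ^ 2 → ‖f - θ • ρ‖ ≤ D := by
    intro ρ h
    refine (abs_le_of_sq_le_sq ?_ (by linarith)).trans' (le_abs_self _)
    rw [hDsq]
    refine h.trans ?_
    have h1 : ‖f‖ ^ 2 ≤ 1 := by
      have := pow_le_pow_left₀ (norm_nonneg f) hfn 2
      simpa using this
    have h2 : ‖k‖ ^ 2 ≤ 4 := by
      have := pow_le_pow_left₀ (norm_nonneg k) hkn 2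
      norm_num at this
      linarith
    have h3 : θ ^ 2 * ‖k‖ ^ 2 ≤ θ ^ 2 * 4 := by gcongr
    have h4 : θ ^ 2 * 4 = t ^ 2 / 16 := by rw [hθ]; ring
    linarith
  have hn1 := hn ρ1 (hρ1 θ hθ0)
  have hn2 := hn ρ2 (hρ2 θ hθ0)
  set M := max ‖x + t • y‖ ‖x - t • y‖ with hM
  have hM0 : 0 ≤ M := (norm_nonneg _).trans (le_max_left _ _)
  have i1 : (x + t • y) (f - θ • ρ1) ≤ M * D := by
    calc (x + t • y) (f - θ • ρ1) ≤ ‖(x + t • y) (f - θ • ρ1)‖ := le_abs_self _
      _ ≤ ‖x + t • y‖ * ‖f - θ • ρ1‖ := ContinuousLinearMap.le_opNorm _ _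
      _ ≤ M * D := mul_le_mul (le_max_left _ _) hn1 (norm_nonneg _) hM0
  have i2 : (x - t • y) (f - θ • ρ2) ≤ M * D := by
    calc (x - t • y) (f - θ • ρ2) ≤ ‖(x - t • y) (f - θ • ρ2)‖ := le_abs_self _
      _ ≤ ‖x - t • y‖ * ‖f - θ • ρ2‖ := ContinuousLinearMap.le_opNorm _ _
      _ ≤ M * D := mul_le_mul (le_max_right _ _) hn2 (norm_nonneg _) hM0
  have e1 : (x + t • y) (f - θ • ρ1) = x f - θ * x ρ1 + t * (y f - θ * y ρ1) := by
    rw [add_apply, smul_apply, map_sub, map_sub, map_smul, map_smul]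
    simp only [smul_eq_mul]
  have e2 : (x - t • y) (f - θ • ρ2) = x f - θ * x ρ2 - t * (y f - θ * y ρ2) := by
    rw [sub_apply, smul_apply, map_sub, map_sub, map_smul, map_smul]
    simp only [smul_eq_mul]
  have hx1 : x ρ1 ≤ 2 * ε := by
    have h1 := (abs_le.1 (hm ρ1 hρ1z)).2
    have h2 : ε * ‖ρ1‖ ≤ ε * 2 := by gcongr; exact hρ1n.trans hkn
    linarith
  have hx2 : x ρ2 ≤ 2 * ε := by
    have h1 := (abs_le.1 (hm ρ2 hρ2z)).2
    have h2 : ε * ‖ρ2‖ ≤ ε * 2 := by gcongr; exact hρ2n.trans hkn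
    linarith
  rw [e1] at i1
  rw [e2] at i2
  have hy12 : y ρ2 - y ρ1 = y k := by rw [← map_sub, hρk]
  exact final_ineq ht hη hK hεd hθ hDsq hD1 i1 i2 hxf hyk hx1 hx2 hy12

/-- the norm of `X` as a seminorm -/
theorem amuc_modulus_ge (t : ℝ) (ht : 0 < t) :
    ((Real.sqrt (1 + t ^ 2 / 16) - 1 : ℝ) : EReal) ≤ amucModulus (normSeminorm ℝ X) t := by
  unfold amucModulus
  refine le_iInf₂ fun x hx => ?_
  have hx' : ‖x‖ = 1 := hx
  rw [← EReal.ge_of_forall_gt_iff_ge]
  intro z hz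
  have hz' : z < Real.sqrt (1 + t ^ 2 / 16) - 1 := by exact_mod_cast hz
  obtain ⟨F, hF, hFy⟩ := amuc_core x hx' ht
    (η := Real.sqrt (1 + t ^ 2 / 16) - 1 - z) (by linarith)
  refine le_iSup₂_of_le F hF ?_
  refine le_iInf₂ fun y hy => ?_
  have := hFy y hy.1 hy.2
  rw [EReal.coe_le_coe_iff]
  change z ≤ max ‖x + t • y‖ ‖x - t • y‖ - 1
  linarith

theorem isAMUC_X : IsAMUC (normSeminorm ℝ X) := by
  intro t ht
  refine lt_of_lt_of_le ?_ (amuc_modulus_ge t ht)
  rw [← EReal.coe_zero, EReal.coe_lt_coe_iff]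
  have : 1 < Real.sqrt (1 + t ^ 2 / 16) := by
    rw [Real.lt_sqrt (by norm_num)]
    nlinarith [sq_pos_of_pos ht]
  linarith

end

end Vale.Agent.P069
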