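import Mathlib
import Vale.Agent.P069.Amuc

/-!
Reflexivity, separability and infinite dimension of the dual of the tree space, and the absence
of equivalent asymptotically uniformly convex norms.
-/

namespace Vale.Agent.P069

open scoped ENNReal
open Filter

noncomputable section

theorem reflexive_X : IsReflexiveSpace X := by
  intro Ψ
  refine ⟨Ψ.comp (NormedSpace.inclusionInDoubleDual ℝ Y), ?_⟩
  ext φ
  obtain ⟨y, hy⟩ := reflexive_Y φ
  have e : φ = NormedSpace.inclusionInDoubleDual ℝ Y y := by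
    ext x
    rw [hy x, NormedSpace.dual_def]
  rw [NormedSpace.dual_def, hy]
  rw [e]
  rfl

/-- cumulative sum of an indicator, shorter lists -/
theorem cum_ind_short (l l' : List ℕ) (h : l'.length < l.length) (P : List ℕ → Prop)
    [DecidablePred P] : cum (fun s => if P s ∧ s = l then (1:ℝ) else 0) l' = 0 := by
  induction l' with
  | nil =>
    simp only [cum]
    rw [if_neg]
    rintro ⟨_, rfl⟩
    exact lt_irrefl _ h
  | cons a l' ih =>
    simp only [cum]
    rw [ih (by simp only [List.length_cons] at h; omega), if_neg, add_zero]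
    rintro ⟨_, rfl⟩
    exact lt_irrefl _ h

theorem cum_ind_abs (l l' : List ℕ) (P : List ℕ → Prop) [DecidablePred P] :
    |cum (fun s => if P s ∧ s = l then (1:ℝ) else 0) l'| ≤ 1 := by
  induction l' with
  | nil =>
    simp only [cum]
    split_ifs <;> simp
  | cons a l' ih =>
    simp only [cum]
    by_cases h : a :: l' = l
    · rw [cum_ind_short l l' (by rw [← h]; simp), add_zero]
      split_ifs <;> simp
    · rw [if_neg (fun h' => h h'.2), zero_add]
      exact ih

theorem co_eY' (n : ℕ) (l : List ℕ) (n' : ℕ) :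
    co (eY n l) n' = fun l' => if (n' = n ∧ l'.length ≤ n) ∧ l' = l then 1 else 0 := by
  funext l'
  rw [co_eY]
  simp only [and_assoc]

theorem norm_eY_le (n : ℕ) (l : List ℕ) : ‖eY n l‖ ≤ 1 := by
  have H := norm_sq_le (eY n l) (fun n' => if n' = n then 1 else 0)
    (fun n' => by split_ifs <;> norm_num)
    (fun n' => by
      by_cases hn : n' = n
      · rw [if_pos hn]
        rw [tsum_eq_single l]
        · rw [co_eY]
          split_ifs <;> norm_num
        · intro l' hl'
          rw [co_eY, if_neg (fun h => hl' h.2.2)]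
          norm_num
      · rw [if_neg hn]
        have : ∀ l', co (eY n l) n' l' ^ 2 = 0 := by
          intro l'
          rw [co_eY, if_neg (fun h => hn h.1)]
          norm_num
        simp [this])
    (fun n' l' => by
      by_cases hn : n' = n
      · rw [if_pos hn]
        rw [co_eY']
        have := cum_ind_abs l l' (fun s => n' = n ∧ s.length ≤ n)
        rw [sq_le_one_iff_abs_le_one]
        exact this
      · rw [if_neg hn, co_eY']
        have e : (fun l' : List ℕ => if (n' = n ∧ l'.length ≤ n) ∧ l' = l then (1:ℝ) else 0) =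
            fun _ => 0 := by
          funext s
          rw [if_neg]
          intro h
          exact hn h.1.1
        rw [e, cum_zero]
        norm_num)
    (summable_of_ne_finset_zero (s := {n}) (fun b hb => by
      have : b ≠ n := by simpa using hb
      simp [this]))
  rw [tsum_eq_single n (fun b hb => by simp [hb]), if_pos rfl] at H
  have := abs_le_of_sq_le_sq (a := ‖eY n l‖) (b := 1) (by simpa using H) zero_le_one
  exact (le_abs_self _).trans this

theorem coF_eY (n : ℕ) {l : List ℕ} (hl : l.length ≤ n) : coF n l (eY n l) = 1 := by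
  rw [coF_apply, co_eY, if_pos ⟨rfl, hl, rfl⟩]

theorem coF_norm_ge (n : ℕ) {l : List ℕ} (hl : l.length ≤ n) : 1 ≤ ‖(coF n l : X)‖ := by
  have h1 : ‖coF n l (eY n l)‖ ≤ ‖(coF n l : X)‖ * ‖eY n l‖ := ContinuousLinearMap.le_opNorm _ _
  rw [coF_eY n hl, norm_one] at h1
  have h2 := norm_eY_le n l
  nlinarith [norm_nonneg (coF n l : X)]

theorem not_finiteDimensional_X : ¬ FiniteDimensional ℝ X := by
  intro hfin
  let Φ : X →ₗ[ℝ] (ℕ → ℝ) :=
    { toFun := fun x k => x (eY k [])
      map_add' := fun x y => rfl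
      map_smul' := fun c x => rfl }
  have hLI : LinearIndependent ℝ (fun k : ℕ => (coF k [] : X)) := by
    apply LinearIndependent.of_comp Φ
    rw [linearIndependent_iff']
    intro s g hg i hi
    have h1 := congrFun hg i
    rw [Finset.sum_apply, Finset.sum_eq_single i] at h1
    · have h2 : (g i • (Φ ∘ fun k : ℕ => (coF k [] : X)) i) i = g i := by
        change g i * coF i [] (eY i []) = g i
        rw [coF_eY i (by simp), mul_one]
      rw [h2] at h1
      exact h1
    · intro j _ hj
      change g j * coF j [] (eY i []) = 0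
      rw [coF_apply, co_eY, if_neg (fun h => hj h.1), mul_zero]
    · intro h; exact absurd hi h
  have := hLI.finite
  exact not_finite ℕ

theorem separable_X : TopologicalSpace.SeparableSpace X := by
  rw [← TopologicalSpace.isSeparable_univ_iff]
  have hc : (Set.range fun p : ℕ × List ℕ => (coF p.1 p.2 : X)).Countable := Set.countable_range _
  refine (hc.isSeparable.span (R := ℝ)).closure.mono ?_
  intro x _
  rw [Metric.mem_closure_iff]
  intro ε hε
  obtain ⟨m, hm⟩ := (key_small x (ε := ε / 4) (by positivity)).exists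
  refine ⟨∑ n ∈ Finset.range m, ∑ l ∈ Sb m, x (eY n l) • (coF n l : X), ?_, ?_⟩
  · refine Submodule.sum_mem _ fun n _ => Submodule.sum_mem _ fun l _ => ?_
    exact Submodule.smul_mem _ _ (Submodule.subset_span ⟨(n, l), rfl⟩)
  · rw [dist_eq_norm]
    have : ‖x - ∑ n ∈ Finset.range m, ∑ l ∈ Sb m, x (eY n l) • (coF n l : X)‖ ≤ ε / 2 := by
      refine ContinuousLinearMap.opNorm_le_bound _ (by positivity) fun h => ?_
      have e : (x - ∑ n ∈ Finset.range m, ∑ l ∈ Sb m, x (eY n l) • (coF n l : X)) h =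
          x (h - Qb m h) := by
        rw [sub_apply, map_sub]
        congr 1
        unfold Qb
        rw [map_sum, sum_apply]
        refine Finset.sum_congr rfl fun n _ => ?_
        rw [map_sum, sum_apply]
        refine Finset.sum_congr rfl fun l _ => ?_
        rw [smul_apply, map_smul, coF_apply, smul_eq_mul, smul_eq_mul, mul_comm]
      rw [e]
      have h1 := hm (h - Qb m h)
        (fun n l h1 h2 => by rw [co_sub, co_Qb, if_pos ⟨h1, h2⟩, sub_self])
      have h2 : ‖h - Qb m h‖ ≤ 2 * ‖h‖ := by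
        calc ‖h - Qb m h‖ ≤ ‖h‖ + ‖Qb m h‖ := norm_sub_le _ _
          _ ≤ ‖h‖ + ‖h‖ := by gcongr; exact norm_Qb_le m h
          _ = 2 * ‖h‖ := by ring
      calc ‖x (h - Qb m h)‖ ≤ ε / 4 * ‖h - Qb m h‖ := h1
        _ ≤ ε / 4 * (2 * ‖h‖) := by gcongr
        _ = ε / 2 * ‖h‖ := by ring
    linarith

/-! ### No equivalent AUC norm -/

/-- weakly null sequences are nearly in every closed subspace of finite codimension -/
theorem near_subspace {V : Type*} [NormedAddCommGroup V] [NormedSpace ℝ V] {F : Submodule ℝ V}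
    (hF : F ∈ Cof V) {c : ℕ → V} (hc : ∀ φ : StrongDual ℝ V, Tendsto (fun k => φ (c k)) atTop (nhds 0))
    {ε : ℝ} (hε : 0 < ε) : ∀ᶠ k in atTop, ∃ y ∈ F, ‖c k - y‖ < ε := by
  have : IsClosed (F : Set V) := hF.1
  have : FiniteDimensional ℝ (V ⧸ F) := hF.2
  let π : V →L[ℝ] (V ⧸ F) := F.mkQL
  let e := (Module.finBasis ℝ (V ⧸ F)).equivFunL
  have h1 : Tendsto (fun k => e (π (c k))) atTop (nhds 0) := by
    rw [tendsto_pi_nhds]
    intro i
    exact hc ((ContinuousLinearMap.proj i).comp
      ((e : (V ⧸ F) →L[ℝ] (Fin (Module.finrank ℝ (V ⧸ F)) → ℝ)).comp π))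
  have h2 : Tendsto (fun k => π (c k)) atTop (nhds 0) := by
    have := (e.symm.continuous.tendsto 0).comp h1
    rw [map_zero] at this
    refine this.congr fun k => ?_
    exact e.symm_apply_apply _
  have h3 : Tendsto (fun k => ‖π (c k)‖) atTop (nhds 0) := by
    have := h2.norm
    rwa [norm_zero] at this
  have h4 := h3.eventually (gt_mem_nhds (half_pos hε))
  filter_upwards [h4] with k hk
  obtain ⟨m, hm1, hm2⟩ := Submodule.Quotient.norm_mk_lt (π (c k)) (half_pos hε)
  refine ⟨c k - m, ?_, ?_⟩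
  · rw [← Submodule.Quotient.mk_eq_zero, Submodule.Quotient.mk_sub, hm1]
    exact sub_self _
  · rw [sub_sub_cancel]
    linarith

/-- one step of the branch construction -/
theorem auc_step {V : Type*} [NormedAddCommGroup V] [NormedSpace ℝ V] {N : Seminorm ℝ V}
    {a b : ℝ} (ha : 0 < a) (hab : ∀ x : V, a * ‖x‖ ≤ N x ∧ N x ≤ b * ‖x‖) (hb : 0 < b)
    {δ : ℝ} (hδ : 0 < δ) (hN : (δ : EReal) < aucModulus N (a / (2 * b)))
    {x : V} (hx1 : a ≤ N x) (hx2 : N x ≤ b) {c : ℕ → V} (hcn : ∀ k, 1 ≤ ‖c k‖)
    (hc : ∀ φ : StrongDual ℝ V, Tendsto (fun k => φ (c k)) atTop (nhds 0)) :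
    ∃ k, N x + a * δ / 2 ≤ N (x + c k) := by
  set r := N x with hr
  have hr0 : 0 < r := ha.trans_le hx1
  set t0 := a / (2 * b) with ht0
  have ht0p : 0 < t0 := by positivity
  -- the subspace
  have hx' : N (r⁻¹ • x) = 1 := by
    rw [map_smul_eq_mul, ← hr, norm_inv, Real.norm_of_nonneg hr0.le]
    exact inv_mul_cancel₀ hr0.ne'
  have h1 : (δ : EReal) < ⨆ F ∈ Cof V, ⨅ y ∈ {y : V | y ∈ F ∧ N y = 1},
      ((N (r⁻¹ • x + t0 • y) - 1 : ℝ) : EReal) :=
    lt_of_lt_of_le hN (iInf₂_le (r⁻¹ • x) hx')
  rw [lt_iSup_iff] at h1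
  obtain ⟨F, h1⟩ := h1
  rw [lt_iSup_iff] at h1
  obtain ⟨hF, h1⟩ := h1
  have h2 : ∀ y ∈ F, N y = 1 → δ < N (r⁻¹ • x + t0 • y) - 1 := by
    intro y hy hy1
    have := lt_of_lt_of_le h1 (iInf₂_le y (show y ∈ {y : V | y ∈ F ∧ N y = 1} from ⟨hy, hy1⟩))
    exact_mod_cast this
  set η := min (a / (2 * b)) (a * δ / (2 * b)) with hη
  have hη0 : 0 < η := lt_min (by positivity) (by positivity)
  obtain ⟨k, y, hyF, hy⟩ := (near_subspace hF hc hη0).exists
  refine ⟨k, ?_⟩
  have hd : N (c k - y) ≤ b * η := (hab _).2.trans (by gcongr)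
  have hd1 : b * η ≤ a / 2 := by
    have : η ≤ a / (2 * b) := min_le_left _ _
    calc b * η ≤ b * (a / (2 * b)) := by gcongr
      _ = a / 2 := by field_simp
  have hd2 : b * η ≤ a * δ / 2 := by
    have : η ≤ a * δ / (2 * b) := min_le_right _ _
    calc b * η ≤ b * (a * δ / (2 * b)) := by gcongr
      _ = a * δ / 2 := by field_simp
  have hNy : a / 2 ≤ N y := by
    have h3 : N (c k) ≤ N (c k - y) + N y := by
      have := map_add_le_add N (c k - y) y
      rwa [sub_add_cancel] at this
    have h4 : a ≤ N (c k) := by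
      have := (hab (c k)).1
      nlinarith [hcn k]
    linarith
  have hNy0 : 0 < N y := by linarith
  set s := N y with hs
  set yh := s⁻¹ • y with hyh
  have hyh1 : N yh = 1 := by
    rw [hyh, map_smul_eq_mul, ← hs, norm_inv, Real.norm_of_nonneg hNy0.le]
    exact inv_mul_cancel₀ hNy0.ne'
  have h3 := h2 yh (F.smul_mem _ hyF) hyh1
  -- convexity
  set τ := s / r with hτ
  have hτ0 : 0 < τ := by positivity
  have hτt : t0 ≤ τ := by
    rw [ht0, hτ, div_le_div_iff₀ (by positivity) hr0]
    nlinarith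
  set lam := t0 / τ with hlam
  have hlam0 : 0 < lam := by positivity
  have hlam1 : lam ≤ 1 := by rw [hlam, div_le_one hτ0]; exact hτt
  have hlt : lam * τ = t0 := by rw [hlam]; field_simp
  have e1 : r⁻¹ • x + t0 • yh = (1 - lam) • (r⁻¹ • x) + lam • (r⁻¹ • x + τ • yh) := by
    rw [smul_add, smul_smul lam τ, hlt, sub_smul, one_smul]
    abel
  have h4 : N (r⁻¹ • x + t0 • yh) ≤ (1 - lam) + lam * N (r⁻¹ • x + τ • yh) := by
    rw [e1]
    refine (map_add_le_add N _ _).trans ?_
    rw [map_smul_eq_mul N (1 - lam) (r⁻¹ • x), map_smul_eq_mul N lam (r⁻¹ • x + τ • yh), hx',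
      Real.norm_of_nonneg (show (0:ℝ) ≤ 1 - lam by linarith), Real.norm_of_nonneg hlam0.le, mul_one]
  have h5 : 1 + δ ≤ N (r⁻¹ • x + τ • yh) := by
    by_contra h
    push Not at h
    have : lam * N (r⁻¹ • x + τ • yh) < lam * (1 + δ) := mul_lt_mul_of_pos_left h hlam0
    nlinarith
  have e2 : x + y = r • (r⁻¹ • x + τ • yh) := by
    rw [smul_add, smul_smul, smul_smul, hyh, smul_smul, mul_inv_cancel₀ hr0.ne', one_smul, hτ]
    have : r * (s / r) * s⁻¹ = 1 := by field_simp
    rw [this, one_smul]
  have h6 : r * (1 + δ) ≤ N (x + y) := by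
    rw [e2, map_smul_eq_mul, Real.norm_of_nonneg hr0.le]
    gcongr
  have h7 : N (x + y) ≤ N (x + c k) + N (c k - y) := by
    have := map_sub_le_add N (x + c k) (c k - y)
    have e : x + c k - (c k - y) = x + y := by abel
    rwa [e] at this
  have h8 : a * δ ≤ r * δ := by gcongr
  nlinarith

theorem coF_weakly_null (n : ℕ) (l : List ℕ) (φ : StrongDual ℝ X) :
    Tendsto (fun k : ℕ => φ (coF n (k :: l))) atTop (nhds 0) := by
  obtain ⟨y, hy⟩ := reflexive_Y φ
  have e : (fun k : ℕ => φ (coF n (k :: l))) = fun k => co y n (k :: l) := by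
    funext k
    rw [hy, coF_apply]
  rw [e]
  have h1 : Summable fun k : ℕ => co y n (k :: l) ^ 2 :=
    (summable_co y n).comp_injective (i := fun k : ℕ => k :: l) (fun a b h => by simpa using h)
  have h2 := h1.tendsto_atTop_zero
  have h3 : Tendsto (fun k : ℕ => Real.sqrt (co y n (k :: l) ^ 2)) atTop (nhds 0) := by
    have := (Real.continuous_sqrt.tendsto 0).comp h2
    rwa [Real.sqrt_zero] at this
  simp only [Real.sqrt_sq_eq_abs] at h3
  exact (tendsto_zero_iff_abs_tendsto_zero _).2 h3

theorem not_AUCRenormable_X : ¬ AUCRenormable X := by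
  rintro ⟨N, ⟨a, b, ha, hab⟩, hAUC⟩
  have hb : 0 < b := by
    have h1 := (hab (coF 0 [])).1.trans (hab (coF 0 [])).2
    have h2 := coF_norm_ge 0 (l := []) (by simp)
    by_contra h
    push Not at h
    nlinarith
  have hpos := hAUC (a / (2 * b)) (by positivity)
  obtain ⟨δ, hδ0, hδ⟩ := EReal.lt_iff_exists_real_btwn.1 hpos
  have hδ' : 0 < δ := by exact_mod_cast hδ0
  -- choose a large block
  obtain ⟨n, hn⟩ := exists_nat_gt (b / (a * δ / 2))
  have hcu : ∀ l, N (cuF n l) ≤ b := by
    intro l
    have h1 := (hab (cuF n l)).2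
    have h2 := cuF_norm_le n l
    nlinarith
  have key : ∀ j : ℕ, j ≤ n → ∃ l : List ℕ, l.length = j ∧ a + j * (a * δ / 2) ≤ N (cuF n l) := by
    intro j
    induction j with
    | zero =>
      intro _
      refine ⟨[], rfl, ?_⟩
      have e : cuF n [] = coF n [] := by
        ext h; rw [cuF_apply, coF_apply]; rfl
      rw [e]
      have h1 := (hab (coF n [])).1
      have h2 := coF_norm_ge n (l := []) (by simp)
      push_cast
      nlinarith
    | succ j ih =>
      intro hj
      obtain ⟨l, hl, hl2⟩ := ih (by omega)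
      have hstep := auc_step ha hab hb hδ' hδ (x := cuF n l) (c := fun k => coF n (k :: l))
        (by
          have : (0:ℝ) ≤ j * (a * δ / 2) := by positivity
          linarith)
        (hcu l) (fun k => coF_norm_ge n (by simp only [List.length_cons]; omega))
        (coF_weakly_null n l)
      obtain ⟨k, hk⟩ := hstep
      refine ⟨k :: l, by simp only [List.length_cons]; omega, ?_⟩
      rw [cuF_cons]
      push_cast
      linarith
  obtain ⟨l, _, hl⟩ := key n le_rfl
  have h1 := hcu l
  rw [div_lt_iff₀ (by positivity)] at hn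
  linarith

end

end Vale.Agent.P069
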